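import Mathlib
import Crest.Prelude.Def_BernoulliConv

/-! Algebraic facts on quartic Salem numbers. -/

set_option autoImplicit false

namespace Crest.Agent.R104

open Polynomial Crest.AnalysisR

lemma salem_inv_integral {β : ℝ} (h : IsQuarticSalem β) : IsIntegral ℤ β⁻¹ := by
  obtain ⟨_, hint, _, hroot, _⟩ := h
  rw [minpoly.isIntegrallyClosed_eq_field_fractions' ℚ hint, aeval_map_algebraMap] at hroot
  exact ⟨minpoly ℤ β, minpoly.monic hint, by rwa [← aeval_def]⟩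

lemma salem_zpow_integral {β : ℝ} (h : IsQuarticSalem β) (j : ℤ) : IsIntegral ℤ (β ^ j) := by
  obtain ⟨n, rfl | rfl⟩ := j.eq_nat_or_neg
  · rw [zpow_natCast]; exact h.2.1.pow n
  · rw [zpow_neg, zpow_natCast, ← inv_pow]; exact (salem_inv_integral h).pow n

lemma not_half_of_integral {x : ℝ} (hx : IsIntegral ℤ x) : |x - round x| < 1 / 2 := by
  refine lt_of_le_of_ne (abs_sub_round x) fun h => ?_
  have h1 : IsIntegral ℤ (x - round x) := hx.sub (by
    have : ((round x : ℤ) : ℝ) = algebraMap ℤ ℝ (round x) := by simp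
    rw [this]; exact isIntegral_algebraMap)
  have h2 : IsIntegral ℤ ((1 / 2 : ℝ)) := by
    rcases abs_cases (x - round x) with ⟨h3, _⟩ | ⟨h3, _⟩
    · rw [← h, h3]; exact h1
    · rw [← h, h3]; exact h1.neg
  have h3 : (1 / 2 : ℝ) = algebraMap ℚ ℝ (1 / 2) := by simp
  rw [h3, isIntegral_algebraMap_iff (algebraMap ℚ ℝ).injective,
    IsIntegrallyClosed.isIntegral_iff] at h2
  obtain ⟨y, hy⟩ := h2
  have h4 : (2 * y : ℚ) = 1 := by
    simp only [eq_intCast] at hy; rw [hy]; norm_num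
  have h5 : (2 * y : ℤ) = 1 := by exact_mod_cast h4
  omega

lemma salem_struct {β : ℝ} (h : IsQuarticSalem β) :
    ∃ z : ℂ, ‖z‖ = 1 ∧ ∃ a b : ℤ, (β + β⁻¹) + 2 * z.re = a ∧ (β + β⁻¹) * (2 * z.re) = b := by
  classical
  obtain ⟨h1, hint, hdeg, hroot, hall⟩ := h
  have hintQ : IsIntegral ℚ β := hint.tower_top
  set p := minpoly ℚ β with hp
  have hirr : Irreducible p := minpoly.irreducible hintQ
  have hmon : p.Monic := minpoly.monic hintQ
  set P : ℂ[X] := p.map (algebraMap ℚ ℂ) with hP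
  have hPmon : P.Monic := hmon.map _
  have hP0 : P ≠ 0 := hPmon.ne_zero
  have hnd : P.roots.Nodup := nodup_roots (hirr.separable.map)
  have hcard : P.roots.card = 4 := by
    rw [hP, IsAlgClosed.card_roots_map_eq_natDegree_from_simpleRing, hdeg]
  have hmem : ∀ z : ℂ, z ∈ P.roots ↔ aeval z p = 0 := by
    intro z
    rw [mem_roots hP0, IsRoot.def, hP, eval_map_algebraMap]
  have hreal : ∀ x : ℝ, aeval x p = 0 → aeval (x : ℂ) p = 0 := by
    intro x hx
    have := aeval_algebraMap_apply ℂ x p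
    rw [hx, map_zero] at this
    exact this
  have hβ0 : 0 < β := by linarith
  have hβinv : β⁻¹ < 1 := inv_lt_one_of_one_lt₀ h1
  have hβinv0 : 0 < β⁻¹ := inv_pos.2 hβ0
  have hb1 : (β : ℂ) ∈ P.roots := (hmem _).2 (hreal _ (minpoly.aeval ℚ β))
  have hb2 : ((β⁻¹ : ℝ) : ℂ) ∈ P.roots := (hmem _).2 (hreal _ hroot)
  have hn1 : ‖(β : ℂ)‖ ≠ 1 := by
    rw [Complex.norm_real, Real.norm_eq_abs, abs_of_pos hβ0]; exact h1.ne'
  have hn2 : ‖((β⁻¹ : ℝ) : ℂ)‖ ≠ 1 := by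
    rw [Complex.norm_real, Real.norm_eq_abs, abs_of_pos hβinv0]; exact hβinv.ne
  have h12 : (β : ℂ) ≠ ((β⁻¹ : ℝ) : ℂ) := by
    intro h; have := Complex.ofReal_injective h; linarith
  -- a third root
  obtain ⟨z, hz, hz1, hz2⟩ : ∃ z ∈ P.roots, z ≠ (β : ℂ) ∧ z ≠ ((β⁻¹ : ℝ) : ℂ) := by
    by_contra hcon
    push Not at hcon
    have hsub : P.roots.toFinset ⊆ {(β : ℂ), ((β⁻¹ : ℝ) : ℂ)} := by
      intro z hz
      rw [Multiset.mem_toFinset] at hz
      rw [Finset.mem_insert, Finset.mem_singleton]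
      by_cases h' : z = (β : ℂ)
      · exact Or.inl h'
      · exact Or.inr (hcon z hz h')
    have := Finset.card_le_card hsub
    rw [Multiset.toFinset_card_of_nodup hnd, hcard] at this
    have h2 := Finset.card_le_two (a := (β : ℂ)) (b := ((β⁻¹ : ℝ) : ℂ))
    omega
  have hzn : ‖z‖ = 1 := by
    rcases hall z ((hmem z).1 hz) with h' | h' | h'
    · exact absurd h' hz1
    · exact absurd h' hz2
    · exact h'
  have hzc : (starRingEnd ℂ) z ∈ P.roots := by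
    rw [hmem] at hz ⊢
    have := aeval_algHom_apply ((starRingEnd ℂ).toRatAlgHom) z p
    simp only [RingHom.toRatAlgHom_apply] at this
    rw [this, hz, map_zero]
  have hzcn : ‖(starRingEnd ℂ) z‖ = 1 := by rw [Complex.norm_conj, hzn]
  have hzz : z ≠ (starRingEnd ℂ) z := by
    intro hc
    obtain ⟨r, rfl⟩ := Complex.conj_eq_iff_real.1 hc.symm
    rw [Complex.norm_real, Real.norm_eq_abs] at hzn
    have hq : ∃ q : ℚ, (r : ℂ) = algebraMap ℚ ℂ q := by
      rcases abs_eq (zero_le_one) |>.1 hzn with h' | h'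
      · exact ⟨1, by simp [h']⟩
      · exact ⟨-1, by simp [h']⟩
    obtain ⟨q, hq⟩ := hq
    rw [hmem, hq, aeval_algebraMap_apply, map_eq_zero_iff _ (algebraMap ℚ ℂ).injective] at hz
    have hr : p.IsRoot q := by simpa using hz
    have := degree_eq_one_of_irreducible_of_root hirr hr
    have h3 : p.natDegree = 1 := natDegree_eq_of_degree_eq_some this
    omega
  have hle : ({(β : ℂ), ((β⁻¹ : ℝ) : ℂ), z, (starRingEnd ℂ) z} : Multiset ℂ) ≤ P.roots := by
    rw [Multiset.le_iff_subset]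
    · intro x hx
      simp only [Multiset.insert_eq_cons, Multiset.mem_cons, Multiset.mem_singleton] at hx
      rcases hx with rfl | rfl | rfl | rfl <;> assumption
    · simp only [Multiset.insert_eq_cons, Multiset.nodup_cons, Multiset.mem_cons,
        Multiset.mem_singleton, Multiset.nodup_singleton, and_true, not_or]
      refine ⟨⟨h12, hz1.symm, ?_⟩, ⟨hz2.symm, ?_⟩, hzz⟩
      · intro h'; rw [h'] at hn1; exact hn1 hzcn
      · intro h'; rw [h'] at hn2; exact hn2 hzcn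
  have heq : P.roots = {(β : ℂ), ((β⁻¹ : ℝ) : ℂ), z, (starRingEnd ℂ) z} :=
    (Multiset.eq_of_le_of_card_le hle (by rw [hcard]; simp)).symm
  have hfac := (IsAlgClosed.splits P).eq_prod_roots_of_monic hPmon
  rw [heq] at hfac
  simp only [Multiset.insert_eq_cons, Multiset.map_cons, Multiset.prod_cons,
    Multiset.map_singleton, Multiset.prod_singleton] at hfac
  have e1 : (β : ℂ) * ((β⁻¹ : ℝ) : ℂ) = 1 := by
    rw [← Complex.ofReal_mul, mul_inv_cancel₀ hβ0.ne', Complex.ofReal_one]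
  have e2 : z * (starRingEnd ℂ) z = 1 := by
    rw [Complex.mul_conj, Complex.normSq_eq_norm_sq, hzn]; simp
  have e3 : z + (starRingEnd ℂ) z = ((2 * z.re : ℝ) : ℂ) := by
    rw [Complex.add_conj]
  set y1 : ℂ := (β : ℂ) + ((β⁻¹ : ℝ) : ℂ) with hy1
  set y2 : ℂ := z + (starRingEnd ℂ) z with hy2
  have hexp : P = X ^ 4 - C (y1 + y2) * X ^ 3 + C (2 + y1 * y2) * X ^ 2 - C (y1 + y2) * X + 1 := by
    rw [hfac]
    have f1 : (C (β : ℂ) * C ((β⁻¹ : ℝ) : ℂ) : ℂ[X]) = 1 := by rw [← C_mul, e1, C_1]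
    have f2 : (C z * C ((starRingEnd ℂ) z) : ℂ[X]) = 1 := by rw [← C_mul, e2, C_1]
    simp only [hy1, hy2, C_add, C_mul, map_ofNat]
    linear_combination (X ^ 2 - (C z + C ((starRingEnd ℂ) z)) * X + C z * C ((starRingEnd ℂ) z)) * f1
      + (X ^ 2 - (C (β : ℂ) + C ((β⁻¹ : ℝ) : ℂ)) * X + 1) * f2
  have hcoef : ∀ n, ∃ k : ℤ, P.coeff n = k := by
    intro n
    refine ⟨(minpoly ℤ β).coeff n, ?_⟩
    rw [hP, hp, minpoly.isIntegrallyClosed_eq_field_fractions' ℚ hint, coeff_map, coeff_map]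
    simp
  obtain ⟨k3, hk3⟩ := hcoef 3
  obtain ⟨k2, hk2⟩ := hcoef 2
  rw [hexp] at hk3 hk2
  simp only [coeff_add, coeff_sub, coeff_C_mul, coeff_X_pow, coeff_X, coeff_one] at hk3 hk2
  norm_num at hk3 hk2
  refine ⟨z, hzn, -k3, k2 - 2, ?_, ?_⟩
  · apply Complex.ofReal_injective
    rw [e3] at hk3
    push_cast at hk3 hy1 ⊢
    rw [← hy1]; linear_combination -hk3
  · apply Complex.ofReal_injective
    rw [e3] at hk2
    push_cast at hk2 hy1 ⊢
    rw [← hy1]; linear_combination hk2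

lemma salem_power_sums {β : ℝ} (hβ : β ≠ 0) {z : ℂ} (hz : ‖z‖ = 1) {a b : ℤ}
    (ha : (β + β⁻¹) + 2 * z.re = a) (hb : (β + β⁻¹) * (2 * z.re) = b) (n : ℕ) :
    ∃ u v : ℤ, β ^ n + β⁻¹ ^ n = u + v * (β + β⁻¹) ∧ 2 * (z ^ n).re = u + v * (2 * z.re) := by
  have hzz : z.re ^ 2 + z.im ^ 2 = 1 := by
    have := Complex.normSq_eq_norm_sq z
    rw [hz, Complex.normSq_apply] at this
    linarith
  have hz2 : z ^ 2 = ((2 * z.re : ℝ) : ℂ) * z - 1 := by
    apply Complex.ext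
    · simp [sq]; nlinarith
    · simp [sq]; ring
  have hβ1 : β * β⁻¹ = 1 := mul_inv_cancel₀ hβ
  induction n using Nat.twoStepInduction with
  | zero => exact ⟨2, 0, by simp; norm_num, by simp⟩
  | one => exact ⟨0, 1, by simp, by simp⟩
  | more n h0 h1 =>
    obtain ⟨u0, v0, p0, q0⟩ := h0
    obtain ⟨u1, v1, p1, q1⟩ := h1
    refine ⟨-v1 * b - u0, u1 + v1 * a - v0, ?_, ?_⟩
    · have e : β ^ (n + 2) + β⁻¹ ^ (n + 2)
          = (β + β⁻¹) * (β ^ (n + 1) + β⁻¹ ^ (n + 1)) - (β ^ n + β⁻¹ ^ n) := by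
        linear_combination (-(β ^ n) - β⁻¹ ^ n) * hβ1
      rw [e, p0, p1]
      push_cast
      rw [← ha, ← hb]; ring
    · have e : z ^ (n + 2) = ((2 * z.re : ℝ) : ℂ) * z ^ (n + 1) - z ^ n := by
        rw [pow_add, hz2]; ring
      rw [e, Complex.sub_re, Complex.re_ofReal_mul]
      have : 2 * (2 * z.re * (z ^ (n + 1)).re - (z ^ n).re)
          = 2 * z.re * (2 * (z ^ (n + 1)).re) - 2 * (z ^ n).re := by ring
      rw [this, q0, q1]
      push_cast
      rw [← ha, ← hb]; ring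

theorem salem_trace {β : ℝ} (h : IsQuarticSalem β) :
    ∃ z : ℂ, ‖z‖ = 1 ∧ ∀ j : ℤ, ∃ k : ℤ, β ^ j + β ^ (-j) + 2 * (z ^ j).re = k := by
  obtain ⟨z, hz, a, b, ha, hb⟩ := salem_struct h
  have hβ : β ≠ 0 := by have := h.1; linarith
  refine ⟨z, hz, fun j => ?_⟩
  have key : ∀ n : ℕ, ∃ k : ℤ, β ^ n + β⁻¹ ^ n + 2 * (z ^ n).re = k := by
    intro n
    obtain ⟨u, v, h1, h2⟩ := salem_power_sums hβ hz ha hb n
    refine ⟨2 * u + v * a, ?_⟩
    rw [h1, h2]; push_cast; rw [← ha]; ring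
  obtain ⟨n, rfl | rfl⟩ := j.eq_nat_or_neg
  · obtain ⟨k, hk⟩ := key n
    exact ⟨k, by rw [← hk, zpow_neg, zpow_natCast, zpow_natCast, inv_pow]⟩
  · obtain ⟨k, hk⟩ := key n
    refine ⟨k, ?_⟩
    have hn : ‖z ^ n‖ = 1 := by rw [norm_pow, hz, one_pow]
    rw [← hk, neg_neg, zpow_neg, zpow_neg, zpow_natCast, zpow_natCast, inv_pow,
      Complex.inv_re, Complex.normSq_eq_norm_sq, hn]
    ring

/-- Dirichlet approximation for a unimodular number. -/
lemma dirichlet_unit {z : ℂ} (hz : ‖z‖ = 1) {Q : ℕ} (hQ : 0 < Q) :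
    ∃ q : ℕ, 0 < q ∧ q ≤ Q ∧ ∀ R : ℕ, ‖z ^ (R * q) - 1‖ ≤ 7 * R / (Q + 1) := by
  obtain ⟨q, hq0, hq1, hq⟩ := Real.exists_nat_abs_mul_sub_round_le (z.arg / (2 * Real.pi)) hQ
  refine ⟨q, hq0, hq1, fun R => ?_⟩
  set k : ℤ := round ((q : ℝ) * (z.arg / (2 * Real.pi))) with hk
  have hz' : z = Complex.exp (z.arg * Complex.I) := by
    have := Complex.norm_mul_exp_arg_mul_I z
    rw [hz] at this; simpa using this.symm
  have hpi := Real.pi_pos
  set t : ℝ := R * (2 * Real.pi) * ((q : ℝ) * (z.arg / (2 * Real.pi)) - k) with ht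
  have e : z ^ (R * q) = Complex.exp (Complex.I * (t : ℝ)) := by
    have h1 : (t : ℝ) = (R * q : ℕ) * z.arg - (R * k : ℤ) * (2 * Real.pi) := by
      rw [ht]; push_cast; field_simp
    rw [h1]
    conv_lhs => rw [hz', ← Complex.exp_nat_mul]
    rw [← Complex.exp_periodic.int_mul (R * k : ℤ) (Complex.I * _)]
    congr 1
    push_cast
    ring
  rw [e]
  refine Real.norm_exp_I_mul_ofReal_sub_one_le.trans ?_
  rw [Real.norm_eq_abs, ht, abs_mul, abs_of_nonneg (by positivity)]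
  have hpi2 : 2 * Real.pi ≤ 7 := by linarith [Real.pi_lt_d2]
  calc _ ≤ R * 7 * (1 / ((Q : ℝ) + 1)) := by gcongr
    _ = _ := by ring

end Crest.Agent.R104
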