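import Mathlib
import Crest.Prelude.Def_BernoulliConv

/-! Characteristic function of the Bernoulli convolution as a limit of cosine products. -/

set_option autoImplicit false

namespace Crest.Agent.R104

open MeasureTheory Filter Topology Crest.AnalysisR

instance fairCoin_prob : IsProbabilityMeasure fairCoin := by
  constructor
  simp [fairCoin, ENNReal.inv_two_add_inv_two]

/-- the signed term -/
noncomputable def sgnTerm (c : ℝ) (n : ℕ) (b : Bool) : ℝ := if b then c ^ n else -(c ^ n)

lemma abs_sgnTerm {c : ℝ} (hc : 0 ≤ c) (n : ℕ) (b : Bool) : |sgnTerm c n b| = c ^ n := by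
  unfold sgnTerm
  cases b <;> simp [abs_of_nonneg (pow_nonneg hc n)]

lemma summable_sgnTerm {c : ℝ} (hc : 0 ≤ c) (hc1 : c < 1) (ε : ℕ → Bool) :
    Summable (fun n => sgnTerm c n (ε n)) := by
  refine Summable.of_norm_bounded (summable_geometric_of_lt_one hc hc1) ?_
  intro n
  rw [Real.norm_eq_abs, abs_sgnTerm hc]

lemma tendsto_partial {c : ℝ} (hc : 0 ≤ c) (hc1 : c < 1) (ε : ℕ → Bool) :
    Tendsto (fun K => ∑ n ∈ Finset.range K, sgnTerm c n (ε n)) atTop
      (𝓝 (signedPowerSum c ε)) :=
  (summable_sgnTerm hc hc1 ε).hasSum.tendsto_sum_nat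

lemma measurable_partial (c : ℝ) (K : ℕ) :
    Measurable (fun ε : ℕ → Bool => ∑ n ∈ Finset.range K, sgnTerm c n (ε n)) := by
  refine Finset.measurable_sum _ fun n _ => ?_
  exact (measurable_of_countable (sgnTerm c n)).comp (measurable_pi_apply n)

lemma measurable_signedPowerSum {c : ℝ} (hc : 0 ≤ c) (hc1 : c < 1) :
    Measurable (signedPowerSum c) :=
  measurable_of_tendsto_metrizable (measurable_partial c)
    (tendsto_pi_nhds.2 fun ε => tendsto_partial hc hc1 ε)

lemma bc_prob {c : ℝ} (hc : 0 ≤ c) (hc1 : c < 1) :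
    IsProbabilityMeasure (bernoulliConvolution c) :=
  Measure.isProbabilityMeasure_map (measurable_signedPowerSum hc hc1).aemeasurable

lemma integral_fairCoin (f : Bool → ℂ) : ∫ b, f b ∂fairCoin = (f true + f false) / 2 := by
  rw [fairCoin, integral_add_measure, integral_smul_measure, integral_smul_measure]
  · simp; ring
  · exact Integrable.smul_measure (Integrable.of_finite) (by simp)
  · exact Integrable.smul_measure (Integrable.of_finite) (by simp)

lemma integral_exp_partial (c ξ : ℝ) (K : ℕ) :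
    ∫ ε, Complex.exp (((ξ * ∑ n ∈ Finset.range K, sgnTerm c n (ε n) : ℝ) : ℂ) * Complex.I)
      ∂(Measure.infinitePi (fun _ : ℕ => fairCoin))
      = ((∏ n ∈ Finset.range K, Real.cos (ξ * c ^ n) : ℝ) : ℂ) := by
  have h1 : ∀ ε : ℕ → Bool,
      Complex.exp (((ξ * ∑ n ∈ Finset.range K, sgnTerm c n (ε n) : ℝ) : ℂ) * Complex.I)
      = (fun y : (Π _ : Finset.range K, Bool) =>
          ∏ i : Finset.range K, Complex.exp (((ξ * sgnTerm c i (y i) : ℝ) : ℂ) * Complex.I))
        ((Finset.range K).restrict ε) := by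
    intro ε
    simp only [Finset.restrict]
    rw [Finset.prod_coe_sort (Finset.range K)
      (fun i => Complex.exp (((ξ * sgnTerm c i (ε i) : ℝ) : ℂ) * Complex.I)), ← Complex.exp_sum]
    congr 1
    push_cast
    rw [Finset.mul_sum, Finset.sum_mul]
  simp_rw [h1]
  have h2 := integral_restrict_infinitePi (fun _ : ℕ => fairCoin) (s := Finset.range K)
    (f := fun y : (Π _ : Finset.range K, Bool) =>
      ∏ i : Finset.range K, Complex.exp (((ξ * sgnTerm c i (y i) : ℝ) : ℂ) * Complex.I))
    ((measurable_of_countable _).aestronglyMeasurable)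
  rw [h2]
  rw [integral_fintype_prod_eq_prod (fun (i : Finset.range K) (b : Bool) =>
    Complex.exp (((ξ * sgnTerm c i b : ℝ) : ℂ) * Complex.I))]
  rw [Finset.prod_coe_sort (Finset.range K) (fun i => ∫ b,
    Complex.exp (((ξ * sgnTerm c i b : ℝ) : ℂ) * Complex.I) ∂fairCoin)]
  push_cast
  refine Finset.prod_congr rfl fun n _ => ?_
  rw [integral_fairCoin, Complex.cos]
  simp [sgnTerm]

/-- cosine transform -/
noncomputable def cosT (μ : Measure ℝ) (ξ : ℝ) : ℝ := ∫ x, Real.cos (ξ * x) ∂μ

lemma cosT_eq_re (μ : Measure ℝ) [IsFiniteMeasure μ] (ξ : ℝ) :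
    cosT μ ξ = (∫ x, Complex.exp (((ξ * x : ℝ) : ℂ) * Complex.I) ∂μ).re := by
  have hint : Integrable (fun x : ℝ => Complex.exp (((ξ * x : ℝ) : ℂ) * Complex.I)) μ := by
    refine Integrable.of_bound (by fun_prop) 1 (Eventually.of_forall fun x => ?_)
    rw [Complex.norm_exp_ofReal_mul_I]
  have := integral_re (𝕜 := ℂ) hint
  simp only [RCLike.re_to_complex] at this
  rw [← this, cosT]
  congr 1
  ext x
  rw [Complex.exp_ofReal_mul_I_re]

lemma tendsto_cosProd {c : ℝ} (hc : 0 ≤ c) (hc1 : c < 1) (ξ : ℝ) :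
    Tendsto (fun K => ∏ n ∈ Finset.range K, Real.cos (ξ * c ^ n)) atTop
      (𝓝 (cosT (bernoulliConvolution c) ξ)) := by
  have := bc_prob hc hc1
  rw [cosT_eq_re, bernoulliConvolution, integral_map
    (measurable_signedPowerSum hc hc1).aemeasurable (by fun_prop)]
  have h : Tendsto (fun K => ∫ ε, Complex.exp
      (((ξ * ∑ n ∈ Finset.range K, sgnTerm c n (ε n) : ℝ) : ℂ) * Complex.I)
      ∂(Measure.infinitePi (fun _ : ℕ => fairCoin))) atTop
      (𝓝 (∫ ε, Complex.exp (((ξ * signedPowerSum c ε : ℝ) : ℂ) * Complex.I)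
      ∂(Measure.infinitePi (fun _ : ℕ => fairCoin)))) := by
    refine tendsto_integral_of_dominated_convergence (fun _ => 1) ?_ (integrable_const _) ?_ ?_
    · intro K
      have := measurable_partial c K
      exact Measurable.aestronglyMeasurable (by fun_prop)
    · intro K
      exact Eventually.of_forall fun ε => by rw [Complex.norm_exp_ofReal_mul_I]
    · refine Eventually.of_forall fun ε => ?_
      have h1 := tendsto_partial hc hc1 ε
      have hcont : Continuous fun y : ℝ => Complex.exp (((ξ * y : ℝ) : ℂ) * Complex.I) := by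
        fun_prop
      exact (hcont.tendsto _).comp h1
  simp_rw [integral_exp_partial] at h
  have h2 := (Complex.continuous_re.tendsto _).comp h
  simpa only [Function.comp_def, Complex.ofReal_re] using h2

lemma cosT_gauss (ξ : ℝ) :
    cosT (ProbabilityTheory.gaussianReal 0 1) ξ = Real.exp (-(ξ ^ 2 / 2)) := by
  rw [cosT_eq_re]
  have h := ProbabilityTheory.charFun_gaussianReal (μ := 0) (v := 1) ξ
  rw [charFun_apply_real] at h
  have h2 : (fun x : ℝ => Complex.exp (((ξ * x : ℝ) : ℂ) * Complex.I))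
      = fun x : ℝ => Complex.exp ((ξ : ℂ) * (x : ℂ) * Complex.I) := by
    ext x; push_cast; rfl
  rw [h2, h]
  have : ((ξ : ℂ) * ((0 : ℝ) : ℂ) * Complex.I - (((1 : NNReal) : ℝ) : ℂ) * (ξ : ℂ) ^ 2 / 2)
      = ((-(ξ ^ 2 / 2) : ℝ) : ℂ) := by
    push_cast; simp
  rw [this, Complex.exp_ofReal_re]

end Crest.Agent.R104
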