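import Mathlib
import Crest.Agent.R104.Algebra

/-! The inductive step of the construction of a good frequency. -/

set_option autoImplicit false

namespace Crest.Agent.R104

/-- distance to the nearest integer -/
noncomputable def dd (x : ℝ) : ℝ := |x - round x|

lemma dd_nonneg (x : ℝ) : 0 ≤ dd x := abs_nonneg _

lemma dd_le_half (x : ℝ) : dd x ≤ 1 / 2 := abs_sub_round x

lemma dd_le_abs (x : ℝ) : dd x ≤ |x| := by simpa [dd] using round_le x 0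

lemma dd_le {x y e σ : ℝ} {k : ℤ} (hσ : σ = 1 ∨ σ = -1) (h : x = σ * y + k + e) :
    dd x ≤ dd y + |e| := by
  rcases hσ with rfl | rfl
  · refine (round_le x (round y + k)).trans ?_
    have : x - ((round y + k : ℤ) : ℝ) = (y - round y) + e := by rw [h]; push_cast; ring
    rw [this]; exact abs_add_le _ _
  · refine (round_le x (-round y + k)).trans ?_
    have : x - ((-round y + k : ℤ) : ℝ) = -(y - round y) + e := by rw [h]; push_cast; ring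
    rw [this]
    refine (abs_add_le _ _).trans ?_
    rw [abs_neg]; rfl

/-- state of the construction -/
structure St (β : ℝ) (z : ℂ) (a : ℝ) (L : ℕ) (σ : ℝ) (w : ℂ) : Prop where
  a_le : a ≤ 1
  a_ge : β ^ (-(L : ℤ)) ≤ a
  sig : σ = 1 ∨ σ = -1
  rel : ∀ j : ℤ, ∃ k : ℤ, a * β ^ j + σ * (a * β ^ ((L : ℤ) - j)) + 2 * (w * z ^ j).re = k

/-- energy bound up to index `N` -/
def En (β a : ℝ) (N : ℕ) (D : ℝ) : Prop :=
  ∀ S : Finset ℤ, (∀ j ∈ S, j ≤ N) → ∑ j ∈ S, dd (a * β ^ j) ^ 2 ≤ D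

lemma En.sum_inj {β a : ℝ} {N : ℕ} {D : ℝ} (h : En β a N D) {ι : Type*} (S : Finset ι)
    (f : ι → ℤ) (hinj : Set.InjOn f S) (hf : ∀ i ∈ S, f i ≤ N) :
    ∑ i ∈ S, dd (a * β ^ f i) ^ 2 ≤ D := by
  have := h (S.image f) (by
    intro j hj
    obtain ⟨i, hi, rfl⟩ := Finset.mem_image.1 hj
    exact hf i hi)
  rwa [Finset.sum_image hinj] at this

variable {β : ℝ} {z : ℂ}

lemma geo (hβ : 1 < β) {ι : Type*} (S : Finset ι) (f : ι → ℤ) (hinj : Set.InjOn f S)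
    (hf : ∀ i ∈ S, f i ≤ 0) : ∑ i ∈ S, β ^ f i ≤ (1 - β⁻¹)⁻¹ := by
  have hβ0 : 0 < β := by linarith
  have hc0 : 0 ≤ β⁻¹ := (inv_pos.2 hβ0).le
  have hc1 : β⁻¹ < 1 := inv_lt_one_of_one_lt₀ hβ
  have e : ∑ i ∈ S, β ^ f i = ∑ i ∈ S, β⁻¹ ^ (-f i).toNat := by
    refine Finset.sum_congr rfl fun i hi => ?_
    rw [← zpow_natCast, Int.toNat_of_nonneg (by linarith [hf i hi]), inv_zpow', neg_neg]
  have hinj' : Set.InjOn (fun i => (-f i).toNat) S := by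
    intro i hi j hj hij
    apply hinj hi hj
    have h1 := hf i hi
    have h2 := hf j hj
    simp only at hij
    omega
  rw [e, ← Finset.sum_image (g := fun i => (-f i).toNat) (f := fun n => β⁻¹ ^ n) hinj',
    ← tsum_geometric_of_lt_one hc0 hc1]
  exact (summable_geometric_of_lt_one hc0 hc1).sum_le_tsum _ fun n _ => pow_nonneg hc0 n

lemma card_le_of_Ioc (S : Finset ℤ) (N : ℕ) (h : ∀ j ∈ S, 0 < j ∧ j ≤ N) : (S.card : ℝ) ≤ N := by
  have : S ⊆ Finset.Ioc (0 : ℤ) N := fun j hj => Finset.mem_Ioc.2 (h j hj)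
  have h2 := Finset.card_le_card this
  simp only [Int.card_Ioc, sub_zero, Int.toNat_natCast] at h2
  exact_mod_cast h2

lemma St.a_pos (hβ : 1 < β) {a : ℝ} {L : ℕ} {σ : ℝ} {w : ℂ} (h : St β z a L σ w) : 0 < a :=
  lt_of_lt_of_le (zpow_pos (by linarith) _) h.a_ge

lemma St.dd_le_zpow (hβ : 1 < β) {a : ℝ} {L : ℕ} {σ : ℝ} {w : ℂ} (h : St β z a L σ w) (j : ℤ) :
    dd (a * β ^ j) ≤ β ^ j := by
  have h0 := h.a_pos hβ
  have h1 : 0 < β ^ j := zpow_pos (by linarith) _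
  refine (dd_le_abs _).trans ?_
  rw [abs_of_pos (by positivity)]
  nlinarith [h.a_le]

lemma St.reflect (hz : ‖z‖ = 1) {a : ℝ} {L : ℕ} {σ : ℝ} {w : ℂ} (h : St β z a L σ w) (j : ℤ) :
    dd (a * β ^ j) ≤ dd (a * β ^ ((L : ℤ) - j)) + 2 * ‖w‖ := by
  obtain ⟨k, hk⟩ := h.rel j
  have hσ : -σ = 1 ∨ -σ = -1 := by rcases h.sig with rfl | rfl <;> simp
  have := dd_le (x := a * β ^ j) (y := a * β ^ ((L : ℤ) - j)) (e := -(2 * (w * z ^ j).re))
    (k := k) hσ (by linarith)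
  refine this.trans ?_
  rw [abs_neg, abs_mul, abs_two]
  have h2 : |(w * z ^ j).re| ≤ ‖w‖ := by
    refine (Complex.abs_re_le_norm _).trans ?_
    rw [norm_mul, norm_zpow, hz, one_zpow, mul_one]
  linarith

lemma norm_one_sub_zpow_neg (hz : ‖z‖ = 1) (M : ℕ) : ‖1 - z ^ (-(M : ℤ))‖ = ‖z ^ M - 1‖ := by
  have hz0 : z ≠ 0 := by intro h; rw [h] at hz; simp at hz
  have : 1 - z ^ (-(M : ℤ)) = (z ^ M - 1) * z ^ (-(M : ℤ)) := by
    rw [sub_mul, ← zpow_natCast, ← zpow_add₀ hz0]; simp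
  rw [this, norm_mul, norm_zpow, hz, one_zpow, mul_one]

lemma St.step (hβ : 1 < β) (hz : ‖z‖ = 1) {a : ℝ} {L : ℕ} {σ : ℝ} {w : ℂ} (h : St β z a L σ w)
    (M : ℕ) (hM : β ^ (-(M : ℤ)) ≤ 1 / 2) :
    St β z (a * (1 - β ^ (-(M : ℤ)))) (L + M) (-σ) (w * (1 - z ^ (-(M : ℤ)))) := by
  have hβ0 : 0 < β := by linarith
  have hz0 : z ≠ 0 := by intro h; rw [h] at hz; simp at hz
  have h0 := h.a_pos hβ
  have h1 : 0 < β ^ (-(M : ℤ)) := zpow_pos hβ0 _
  refine ⟨by nlinarith [h.a_le], ?_, by rcases h.sig with rfl | rfl <;> simp, fun j => ?_⟩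
  · have : β ^ (-((L + M : ℕ) : ℤ)) = β ^ (-(L : ℤ)) * β ^ (-(M : ℤ)) := by
      rw [← zpow_add₀ hβ0.ne']; congr 1; push_cast; ring
    rw [this]
    exact mul_le_mul h.a_ge (by linarith) h1.le h0.le
  · obtain ⟨k1, hk1⟩ := h.rel j
    obtain ⟨k2, hk2⟩ := h.rel (j - M)
    refine ⟨k1 - k2, ?_⟩
    have e1 : β ^ (j - M) = β ^ j * β ^ (-(M : ℤ)) := by rw [← zpow_add₀ hβ0.ne']; congr 1
    have e2 : β ^ ((L : ℤ) - j) = β ^ (((L + M : ℕ) : ℤ) - j) * β ^ (-(M : ℤ)) := by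
      rw [← zpow_add₀ hβ0.ne']; congr 1; push_cast; ring
    have e3 : β ^ ((L : ℤ) - (j - M)) = β ^ (((L + M : ℕ) : ℤ) - j) := by
      congr 1; push_cast; ring
    have e4 : z ^ (j - M) = z ^ j * z ^ (-(M : ℤ)) := by rw [← zpow_add₀ hz0]; congr 1
    have e5 : (w * (1 - z ^ (-(M : ℤ))) * z ^ j).re = (w * z ^ j).re - (w * z ^ (j - M)).re := by
      rw [← Complex.sub_re, e4]; congr 1; ring
    rw [e1, e3] at hk2
    rw [e2] at hk1
    rw [e5]
    push_cast at hk1 hk2 ⊢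
    linear_combination hk1 - hk2

lemma St.step_dd (hβ : 1 < β) {a : ℝ} {L : ℕ} {σ : ℝ} {w : ℂ} (h : St β z a L σ w)
    (M : ℕ) (j : ℤ) :
    dd (a * (1 - β ^ (-(M : ℤ))) * β ^ j) ≤ dd (a * β ^ j) + β ^ (j - M) := by
  have hβ0 : 0 < β := by linarith
  have h0 := h.a_pos hβ
  have e1 : β ^ (j - M) = β ^ j * β ^ (-(M : ℤ)) := by rw [← zpow_add₀ hβ0.ne']; congr 1
  have h1 : 0 < β ^ (j - M) := zpow_pos hβ0 _
  have := dd_le (x := a * (1 - β ^ (-(M : ℤ))) * β ^ j) (y := a * β ^ j) (σ := 1) (k := 0)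
    (e := -(a * β ^ (j - M))) (Or.inl rfl) (by rw [e1]; push_cast; ring)
  refine this.trans ?_
  rw [abs_neg, abs_of_pos (by positivity)]
  nlinarith [h.a_le]

lemma St.step_margin (hβ : 1 < β) (hz : ‖z‖ = 1) {a : ℝ} {L : ℕ} {σ : ℝ} {w : ℂ}
    (h : St β z a L σ w) (M G : ℕ) (hM : β ^ (-(M : ℤ)) ≤ 1 / 2) (hG : L + 2 * G ≤ M) {r : ℝ}
    (hr : ∀ j : ℤ, dd (a * β ^ j) ≤ r) (j : ℤ) :
    dd (a * (1 - β ^ (-(M : ℤ))) * β ^ j) ≤ r + β ^ (-(G : ℤ)) + 2 * ‖w * (1 - z ^ (-(M : ℤ)))‖ := by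
  have key : ∀ i : ℤ, 2 * i ≤ L + M →
      dd (a * (1 - β ^ (-(M : ℤ))) * β ^ i) ≤ r + β ^ (-(G : ℤ)) := by
    intro i hi
    have h1 := h.step_dd hβ M i
    have h2 : β ^ (i - M) ≤ β ^ (-(G : ℤ)) := zpow_le_zpow_right₀ hβ.le (by omega)
    linarith [hr i]
  by_cases hj : 2 * j ≤ L + M
  · linarith [key j hj, norm_nonneg (w * (1 - z ^ (-(M : ℤ))))]
  · have h1 := (h.step hβ hz M hM).reflect hz j
    have h2 := key (((L + M : ℕ) : ℤ) - j) (by push_cast; omega)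
    linarith

lemma St.step_energy (hβ : 1 < β) (hz : ‖z‖ = 1) {a : ℝ} {L : ℕ} {σ : ℝ} {w : ℂ}
    (h : St β z a L σ w) (M : ℕ) (hM : β ^ (-(M : ℤ)) ≤ 1 / 2) (hLM : L ≤ M) {D : ℝ}
    (hD : En β a M D) (N : ℕ) (hN : N * ‖w * (1 - z ^ (-(M : ℤ)))‖ ^ 2 ≤ 1) :
    En β (a * (1 - β ^ (-(M : ℤ)))) N (17 / 8 * D + (51 * (1 - β⁻¹)⁻¹ + 136)) := by
  classical
  intro S hS
  set a' := a * (1 - β ^ (-(M : ℤ))) with ha'
  set e := ‖w * (1 - z ^ (-(M : ℤ)))‖ with he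
  have hβ0 : 0 < β := by linarith
  have sq_le : ∀ x u v : ℝ, 0 ≤ x → x ≤ u + v → x ^ 2 ≤ 17 / 16 * u ^ 2 + 17 * v ^ 2 := by
    intro x u v hx hxuv
    have : x ^ 2 ≤ (u + v) ^ 2 := pow_le_pow_left₀ hx hxuv 2
    nlinarith [sq_nonneg (u / 4 - 4 * v)]
  have zsq : ∀ i : ℤ, i ≤ M → (β ^ (i - M)) ^ 2 ≤ β ^ (i - M) := by
    intro i hi
    have h1 : 0 < β ^ (i - M) := zpow_pos hβ0 _
    have h2 : β ^ (i - M) ≤ 1 := zpow_le_one_of_nonpos₀ hβ.le (by omega)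
    nlinarith
  rw [← Finset.sum_filter_add_sum_filter_not S (fun j => 2 * j ≤ (L : ℤ) + M)]
  set S1 := S.filter (fun j => 2 * j ≤ (L : ℤ) + M) with hS1
  set S2 := S.filter (fun j => ¬ 2 * j ≤ (L : ℤ) + M) with hS2
  have m1 : ∀ j ∈ S1, j ≤ M := by
    intro j hj; have := (Finset.mem_filter.1 hj).2; omega
  have m2 : ∀ j ∈ S2, (L : ℤ) + M - j ≤ M := by
    intro j hj; have := (Finset.mem_filter.1 hj).2; omega
  have b1 : ∑ j ∈ S1, dd (a' * β ^ j) ^ 2 ≤ 17 / 16 * D + 17 * (1 - β⁻¹)⁻¹ := by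
    calc _ ≤ ∑ j ∈ S1, (17 / 16 * dd (a * β ^ j) ^ 2 + 17 * β ^ (j - M)) := by
          refine Finset.sum_le_sum fun j hj => ?_
          have := sq_le _ _ _ (dd_nonneg _) (h.step_dd hβ M j)
          linarith [zsq j (m1 j hj)]
      _ = 17 / 16 * ∑ j ∈ S1, dd (a * β ^ j) ^ 2 + 17 * ∑ j ∈ S1, β ^ (j - M) := by
          rw [Finset.sum_add_distrib, Finset.mul_sum, Finset.mul_sum]
      _ ≤ _ := by
          have h1 := hD S1 m1
          have h2 := geo hβ S1 (fun j => j - M) (fun i _ j _ hij => by simpa using hij)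
            (fun j hj => by have := m1 j hj; omega)
          linarith
  have b2 : ∑ j ∈ S2, dd (a' * β ^ j) ^ 2 ≤ 17 / 16 * D + 34 * (1 - β⁻¹)⁻¹ + 136 := by
    calc _ ≤ ∑ j ∈ S2, (17 / 16 * dd (a * β ^ ((L : ℤ) + M - j)) ^ 2
            + 34 * β ^ ((L : ℤ) + M - j - M) + 136 * e ^ 2) := by
          refine Finset.sum_le_sum fun j hj => ?_
          have h1 := (h.step hβ hz M hM).reflect hz j
          have h2 := h.step_dd hβ M ((L : ℤ) + M - j)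
          push_cast at h1
          have h3 := sq_le (dd (a' * β ^ j)) (dd (a * β ^ ((L : ℤ) + M - j)))
            (β ^ ((L : ℤ) + M - j - M) + 2 * e) (dd_nonneg _) (by linarith)
          have h4 := zsq _ (m2 j hj)
          nlinarith [sq_nonneg (β ^ ((L : ℤ) + M - j - M) - 2 * e)]
      _ = 17 / 16 * ∑ j ∈ S2, dd (a * β ^ ((L : ℤ) + M - j)) ^ 2
            + 34 * ∑ j ∈ S2, β ^ ((L : ℤ) + M - j - M) + 136 * (S2.card * e ^ 2) := by
          rw [Finset.sum_add_distrib, Finset.sum_add_distrib, Finset.mul_sum, Finset.mul_sum]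
          simp only [Finset.sum_const, nsmul_eq_mul]
          ring
      _ ≤ _ := by
          have h1 := hD.sum_inj S2 (fun j => (L : ℤ) + M - j)
            (fun i _ j _ hij => by simpa using hij) m2
          have h2 := geo hβ S2 (fun j => (L : ℤ) + M - j - M)
            (fun i _ j _ hij => by simp only at hij; omega)
            (fun j hj => by have := m2 j hj; omega)
          have h3 : (S2.card : ℝ) ≤ N := card_le_of_Ioc S2 N fun j hj => by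
            have h4 := Finset.mem_filter.1 hj
            have h5 := hS j h4.1
            have h6 := h4.2
            omega
          have h4 : S2.card * e ^ 2 ≤ 1 := le_trans (by gcongr) hN
          linarith
  linarith

lemma St.energy_trivial (hβ : 1 < β) {a : ℝ} {L : ℕ} {σ : ℝ} {w : ℂ}
    (h : St β z a L σ w) (N : ℕ) : En β a N (N + (1 - β⁻¹)⁻¹) := by
  classical
  intro S hS
  rw [← Finset.sum_filter_add_sum_filter_not S (fun j => 0 < j)]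
  have hsq : ∀ x, dd x ^ 2 ≤ dd x := fun x => by nlinarith [dd_nonneg x, dd_le_half x]
  have b1 : ∑ j ∈ S.filter (fun j => 0 < j), dd (a * β ^ j) ^ 2 ≤ N := by
    calc _ ≤ ∑ j ∈ S.filter (fun j => 0 < j), (1 : ℝ) :=
          Finset.sum_le_sum fun j _ => by linarith [hsq (a * β ^ j), dd_le_half (a * β ^ j)]
      _ = (S.filter (fun j => 0 < j)).card := by simp
      _ ≤ N := card_le_of_Ioc _ N fun j hj =>
          ⟨(Finset.mem_filter.1 hj).2, hS j (Finset.mem_filter.1 hj).1⟩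
  have b2 : ∑ j ∈ S.filter (fun j => ¬ 0 < j), dd (a * β ^ j) ^ 2 ≤ (1 - β⁻¹)⁻¹ := by
    calc _ ≤ ∑ j ∈ S.filter (fun j => ¬ 0 < j), β ^ j :=
          Finset.sum_le_sum fun j _ => (hsq _).trans (h.dd_le_zpow hβ j)
      _ ≤ _ := geo hβ _ (fun j => j) (fun i _ j _ hij => hij)
          (fun j hj => by have := (Finset.mem_filter.1 hj).2; omega)
  linarith

lemma St.l1 (hβ : 1 < β) (hz : ‖z‖ = 1) {a : ℝ} {L : ℕ} {σ : ℝ} {w : ℂ}
    (h : St β z a L σ w) (N : ℕ) (S : Finset ℤ) (hS : ∀ j ∈ S, j ≤ N) :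
    ∑ j ∈ S, dd (a * β ^ j) ≤ 2 * (1 - β⁻¹)⁻¹ + L + 2 * ‖w‖ * N := by
  classical
  rw [← Finset.sum_filter_add_sum_filter_not S (fun j => 0 < j),
    ← Finset.sum_filter_add_sum_filter_not (S.filter (fun j => 0 < j)) (fun j => j ≤ (L : ℤ))]
  set S1 := (S.filter (fun j => 0 < j)).filter (fun j => j ≤ (L : ℤ)) with hS1
  set S2 := (S.filter (fun j => 0 < j)).filter (fun j => ¬ j ≤ (L : ℤ)) with hS2
  have b1 : ∑ j ∈ S1, dd (a * β ^ j) ≤ L := by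
    calc _ ≤ ∑ j ∈ S1, (1 : ℝ) :=
          Finset.sum_le_sum fun j _ => by linarith [dd_le_half (a * β ^ j)]
      _ = S1.card := by simp
      _ ≤ L := card_le_of_Ioc _ L fun j hj =>
          ⟨(Finset.mem_filter.1 (Finset.mem_filter.1 hj).1).2, (Finset.mem_filter.1 hj).2⟩
  have b2 : ∑ j ∈ S2, dd (a * β ^ j) ≤ (1 - β⁻¹)⁻¹ + 2 * ‖w‖ * N := by
    calc _ ≤ ∑ j ∈ S2, (β ^ ((L : ℤ) - j) + 2 * ‖w‖) :=
          Finset.sum_le_sum fun j _ => by linarith [h.reflect hz j, h.dd_le_zpow hβ ((L : ℤ) - j)]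
      _ = ∑ j ∈ S2, β ^ ((L : ℤ) - j) + 2 * ‖w‖ * S2.card := by
          rw [Finset.sum_add_distrib]; simp only [Finset.sum_const, nsmul_eq_mul]; ring
      _ ≤ _ := by
          have h2 := geo hβ S2 (fun j => (L : ℤ) - j) (fun i _ j _ hij => by simpa using hij)
            (fun j hj => by have := (Finset.mem_filter.1 hj).2; omega)
          have h3 : (S2.card : ℝ) ≤ N := card_le_of_Ioc S2 N fun j hj =>
            ⟨(Finset.mem_filter.1 (Finset.mem_filter.1 hj).1).2,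
              hS j (Finset.mem_filter.1 (Finset.mem_filter.1 hj).1).1⟩
          have h4 : 2 * ‖w‖ * S2.card ≤ 2 * ‖w‖ * N := by gcongr
          linarith
  have b3 : ∑ j ∈ S.filter (fun j => ¬ 0 < j), dd (a * β ^ j) ≤ (1 - β⁻¹)⁻¹ := by
    calc _ ≤ ∑ j ∈ S.filter (fun j => ¬ 0 < j), β ^ j :=
          Finset.sum_le_sum fun j _ => h.dd_le_zpow hβ j
      _ ≤ _ := geo hβ _ (fun j => j) (fun i _ j _ hij => hij)
          (fun j hj => by have := (Finset.mem_filter.1 hj).2; omega)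
  linarith

end Crest.Agent.R104
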