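import Mathlib
import Crest.Agent.R104.Step

/-! The construction of good frequencies. -/

set_option autoImplicit false

namespace Crest.Agent.R104

variable {β : ℝ} {z : ℂ}

/-- the invariant -/
def Inv (β : ℝ) (z : ℂ) (ρ h D : ℝ) : Prop :=
  ∃ (a : ℝ) (L : ℕ) (σ : ℝ) (w : ℂ), St β z a L σ w ∧ ‖w‖ ≤ 1 / h ^ 4 ∧ (L : ℝ) ≤ h ^ 3 ∧
    (∀ j : ℤ, dd (a * β ^ j) ≤ ρ - 4 / h) ∧ ∀ N : ℕ, (N : ℝ) ≤ h ^ 8 → En β a N D

lemma En.mono {a : ℝ} {N : ℕ} {D D' : ℝ} (h : En β a N D) (hD : D ≤ D') : En β a N D' :=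
  fun S hS => (h S hS).trans hD

lemma zpow_neg_le (hβ : 1 < β) (G : ℕ) {x : ℝ} (hx : 0 < x) (h : x ≤ G * (β - 1)) :
    β ^ (-(G : ℤ)) ≤ 1 / x := by
  have h1 : 1 + G * (β - 1) ≤ β ^ G := by
    have := one_add_mul_le_pow (a := β - 1) (by linarith) G
    simpa using this
  rw [zpow_neg, zpow_natCast, one_div]
  exact inv_anti₀ hx (by linarith)

lemma zpow_neg_anti (hβ : 1 < β) {G M : ℕ} (h : G ≤ M) : β ^ (-(M : ℤ)) ≤ β ^ (-(G : ℤ)) :=
  zpow_le_zpow_right₀ hβ.le (by omega)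

lemma inv_finish (hβ : 1 < β) (hz : ‖z‖ = 1) {ρ h D : ℝ} (hh : 2 ≤ h)
    (hD : 40 * (51 * (1 - β⁻¹)⁻¹ + 136) ≤ D) {a : ℝ} {L : ℕ} {σ : ℝ} {w : ℂ}
    (hst : St β z a L σ w) (hw : ‖w‖ ≤ 1 / h ^ 4)
    (hm : ∀ j : ℤ, dd (a * β ^ j) ≤ ρ - 4 / h) (hE : ∀ N : ℕ, (N : ℝ) ≤ h ^ 8 → En β a N D)
    (G M : ℕ) (hG : β ^ (-(G : ℤ)) ≤ 1 / h) (hGM : L + 2 * G ≤ M) (hM : (M : ℝ) ≤ h ^ 8)
    {h' : ℝ} (hh' : 2 * h ≤ h') (hzM : ‖z ^ M - 1‖ ≤ h ^ 4 / h' ^ 4)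
    (hL' : (L : ℝ) + M ≤ h' ^ 3) : Inv β z ρ h' (43 / 20 * D) := by
  have h0 : 0 < h := by linarith
  have h0' : 0 < h' := by linarith
  have hMh : β ^ (-(M : ℤ)) ≤ 1 / 2 :=
    (zpow_neg_anti hβ (by omega : G ≤ M)).trans (hG.trans (by gcongr))
  have hw' : ‖w * (1 - z ^ (-(M : ℤ)))‖ ≤ 1 / h' ^ 4 := by
    rw [norm_mul, norm_one_sub_zpow_neg hz]
    calc _ ≤ 1 / h ^ 4 * (h ^ 4 / h' ^ 4) := by gcongr
      _ = _ := by field_simp
  refine ⟨_, _, _, _, hst.step hβ hz M hMh, hw', by push_cast; exact hL', fun j => ?_,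
    fun N hN => ?_⟩
  · have h1 := hst.step_margin hβ hz M G hMh hGM hm j
    have h2 : 1 / h' ^ 4 ≤ 1 / h' := by
      apply one_div_le_one_div_of_le h0'
      calc h' = h' * 1 := by ring
        _ ≤ h' * h' ^ 3 := by gcongr; exact one_le_pow₀ (by linarith)
        _ = _ := by ring
    have h3 : 1 / h' ≤ 1 / (2 * h) := one_div_le_one_div_of_le (by positivity) hh'
    have h4 : 1 / (2 * h) = (1 / h) / 2 := by field_simp
    have h5 : 4 / h = 4 * (1 / h) := by ring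
    have h6 : 4 / h' = 4 * (1 / h') := by ring
    linarith
  · refine (hst.step_energy hβ hz M hMh (by omega) (hE M hM) N ?_).mono (by linarith)
    calc (N : ℝ) * ‖w * (1 - z ^ (-(M : ℤ)))‖ ^ 2 ≤ h' ^ 8 * (1 / h' ^ 4) ^ 2 := by gcongr
      _ = 1 := by field_simp

lemma inv_step (hβ : 1 < β) (hz : ‖z‖ = 1) {ρ h D : ℝ} (hh : 2 ^ 20 ≤ h) (hb : 1 ≤ h * (β - 1))
    (hD : 40 * (51 * (1 - β⁻¹)⁻¹ + 136) ≤ D) (hI : Inv β z ρ h D) :
    ∃ h', h ≤ h' ∧ 11 / 5 * Real.log h ≤ Real.log h' ∧ Inv β z ρ h' (43 / 20 * D) := by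
  obtain ⟨a, L, σ, w, hst, hw, hL, hm, hE⟩ := hI
  have h0 : 0 < h := by linarith
  have h1 : (1 : ℝ) ≤ h := by linarith
  set G := ⌈h ^ 2⌉₊ with hGdef
  have hG1 : h ^ 2 ≤ G := Nat.le_ceil _
  have hG2 : (G : ℝ) < h ^ 2 + 1 := Nat.ceil_lt_add_one (by positivity)
  have hG : β ^ (-(G : ℤ)) ≤ 1 / h := zpow_neg_le hβ G h0 (by nlinarith)
  set R := L + 2 * G with hR
  have hR2 : (R : ℝ) ≤ 2 * h ^ 3 := by rw [hR]; push_cast; nlinarith
  set Q := ⌊h ^ 8⌋₊ with hQ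
  have h8 : 1 ≤ h ^ 8 := one_le_pow₀ h1
  have hQ0 : 0 < Q := Nat.floor_pos.2 h8
  have hQ1 : (Q : ℝ) ≤ h ^ 8 := Nat.floor_le (by positivity)
  have hQ2 : h ^ 8 < Q + 1 := Nat.lt_floor_add_one _
  obtain ⟨q, hq0, hqQ, hq⟩ := dirichlet_unit hz hQ0
  have hlog : ∀ h' : ℝ, 0 < h' → h ^ 9 / 16 ≤ h' ^ 4 → 11 / 5 * Real.log h ≤ Real.log h' := by
    intro h' h0' hle
    have e1 := Real.log_le_log (by positivity) hle
    rw [Real.log_div (by positivity) (by norm_num), Real.log_pow, Real.log_pow] at e1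
    have e2 : Real.log (2 ^ 20) ≤ Real.log h := Real.log_le_log (by positivity) hh
    have e3 : Real.log 16 = 4 * Real.log 2 := by
      rw [show (16 : ℝ) = 2 ^ 4 by norm_num, Real.log_pow]; norm_num
    rw [Real.log_pow] at e2
    push_cast at e1 e2
    linarith
  by_cases hc : R ≤ q
  · have hh' : 2 * h ≤ h ^ 3 / 2 := by nlinarith
    refine ⟨h ^ 3 / 2, by linarith, hlog _ (by positivity) ?_,
      inv_finish hβ hz (by linarith) hD hst hw hm hE G q hG hc ?_ hh' ?_ ?_⟩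
    · have : h ^ 9 ≤ h ^ 12 := pow_le_pow_right₀ h1 (by norm_num)
      calc h ^ 9 / 16 ≤ h ^ 12 / 16 := by gcongr
        _ = _ := by ring
    · exact le_trans (by exact_mod_cast hqQ) hQ1
    · have := hq 1
      rw [one_mul] at this
      refine this.trans ?_
      calc 7 * ((1 : ℕ) : ℝ) / (Q + 1) ≤ 16 / h ^ 8 := by
            push_cast
            gcongr
            norm_num
        _ = _ := by field_simp; norm_num
    · have hq1 : (q : ℝ) ≤ h ^ 8 := le_trans (by exact_mod_cast hqQ) hQ1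
      have : h ^ 3 ≤ h ^ 8 := pow_le_pow_right₀ h1 (by norm_num)
      have h16 : 2 * h ^ 8 ≤ h ^ 9 / 8 := by
        have : h ^ 9 = h * h ^ 8 := by ring
        nlinarith
      calc (L : ℝ) + q ≤ h ^ 9 / 8 := by linarith
        _ = _ := by ring
  · push Not at hc
    set s := Real.sqrt (Real.sqrt h) with hs
    have hs0 : 0 ≤ s := Real.sqrt_nonneg _
    have hs4 : s ^ 4 = h := by
      have e1 : s ^ 2 = Real.sqrt h := Real.sq_sqrt (Real.sqrt_nonneg _)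
      have e2 : Real.sqrt h ^ 2 = h := Real.sq_sqrt h0.le
      calc s ^ 4 = (s ^ 2) ^ 2 := by ring
        _ = h := by rw [e1, e2]
    have hs32 : 32 ≤ s := by
      by_contra hcon
      push Not at hcon
      have : s ^ 4 < 32 ^ 4 := pow_lt_pow_left₀ hcon hs0 (by norm_num)
      rw [hs4] at this
      linarith
    have hh' : 2 * h ≤ h ^ 2 * s / 2 := by nlinarith
    have h4' : (h ^ 2 * s / 2) ^ 4 = h ^ 9 / 16 := by
      calc (h ^ 2 * s / 2) ^ 4 = h ^ 8 * s ^ 4 / 16 := by ring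
        _ = _ := by rw [hs4]; ring
    have hqR : (q : ℝ) ≤ 2 * h ^ 3 := le_trans (by exact_mod_cast hc.le) hR2
    have hM : ((R * q : ℕ) : ℝ) ≤ 4 * h ^ 6 := by
      push_cast
      calc (R : ℝ) * q ≤ (2 * h ^ 3) * (2 * h ^ 3) := by gcongr
        _ = _ := by ring
    refine ⟨h ^ 2 * s / 2, by linarith, hlog _ (by linarith) h4'.ge,
      inv_finish hβ hz (by linarith) hD hst hw hm hE G (R * q) hG ?_ ?_ hh' ?_ ?_⟩
    · exact Nat.le_mul_of_pos_right R hq0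
    · refine hM.trans ?_
      have : h ^ 8 = h ^ 2 * h ^ 6 := by ring
      rw [this]
      gcongr
      nlinarith
    · refine (hq R).trans ?_
      rw [h4']
      calc 7 * (R : ℝ) / (Q + 1) ≤ 8 * (2 * h ^ 3) / h ^ 8 := by
            gcongr
            norm_num
        _ = _ := by field_simp; norm_num
    · have h36 : h ^ 3 ≤ h ^ 6 := pow_le_pow_right₀ h1 (by norm_num)
      have hs3 : 32 ^ 3 ≤ s ^ 3 := pow_le_pow_left₀ (by norm_num) hs32 3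
      have : (h ^ 2 * s / 2) ^ 3 = h ^ 6 * (s ^ 3 / 8) := by ring
      rw [this]
      have h6 : 0 < h ^ 6 := by positivity
      nlinarith

lemma inv_iter (hβ : 1 < β) (hz : ‖z‖ = 1) {ρ h D : ℝ} (hh : 2 ^ 20 ≤ h) (hb : 1 ≤ h * (β - 1))
    (hD : 40 * (51 * (1 - β⁻¹)⁻¹ + 136) ≤ D) (hI : Inv β z ρ h D) (k : ℕ) :
    ∃ h', h ≤ h' ∧ (11 / 5) ^ k * Real.log h ≤ Real.log h' ∧ Inv β z ρ h' ((43 / 20) ^ k * D) := by
  have hκ : 0 < (1 - β⁻¹)⁻¹ := inv_pos.2 (by linarith [inv_lt_one_of_one_lt₀ hβ])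
  induction k with
  | zero => exact ⟨h, le_rfl, by simp, by simpa using hI⟩
  | succ k ih =>
    obtain ⟨h1, hh1, hl1, hI1⟩ := ih
    have hD0 : 0 ≤ D := by linarith
    have hp : (1 : ℝ) ≤ (43 / 20) ^ k := one_le_pow₀ (by norm_num)
    obtain ⟨h2, hh2, hl2, hI2⟩ := inv_step hβ hz (hh.trans hh1) (by nlinarith) (by nlinarith) hI1
    refine ⟨h2, hh1.trans hh2, ?_, ?_⟩
    · rw [pow_succ]; linarith
    · rw [pow_succ]; convert hI2 using 1; ring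

lemma exists_zpow_neg_le (hβ : 1 < β) {x : ℝ} (hx : 0 < x) :
    ∃ G : ℕ, 0 < G ∧ β ^ (-(G : ℤ)) ≤ x := by
  obtain ⟨G, hG⟩ := exists_nat_ge (1 / x / (β - 1))
  have hb : 0 < β - 1 := by linarith
  refine ⟨G + 1, Nat.succ_pos _, ?_⟩
  have := zpow_neg_le hβ (G + 1) (x := 1 / x) (by positivity) (by
    rw [div_le_iff₀ hb] at hG; push_cast; nlinarith)
  simpa using this

lemma base0 (hβ : 1 < β) (hz : ‖z‖ = 1) (hint : ∀ j : ℤ, IsIntegral ℤ (β ^ j))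
    (htr : ∀ j : ℤ, ∃ k : ℤ, β ^ j + β ^ (-j) + 2 * (z ^ j).re = k) :
    ∃ (a : ℝ) (L : ℕ) (σ : ℝ) (w : ℂ) (r : ℝ), St β z a L σ w ∧ ‖w‖ ≤ 1 / 10 ∧ 0 ≤ r ∧
      r < 1 / 2 ∧ ∀ j : ℤ, dd (a * β ^ j) ≤ r := by
  have hβ0 : 0 < β := by linarith
  have hst0 : St β z 1 0 1 1 := ⟨le_rfl, by simp, Or.inl rfl, fun j => by simpa using htr j⟩
  obtain ⟨J, hJ0, hJ⟩ := exists_zpow_neg_le hβ (x := 1 / 10) (by norm_num)
  obtain ⟨q, hq0, _, hq⟩ := dirichlet_unit hz (Q := 70 * J) (by omega)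
  have hM : β ^ (-((J * q : ℕ) : ℤ)) ≤ 1 / 2 :=
    (zpow_neg_anti hβ (Nat.le_mul_of_pos_right J hq0)).trans (by linarith)
  have hst := hst0.step hβ hz (J * q) hM
  have hw : ‖(1 : ℂ) * (1 - z ^ (-((J * q : ℕ) : ℤ)))‖ ≤ 1 / 10 := by
    rw [one_mul, norm_one_sub_zpow_neg hz]
    refine (hq J).trans ?_
    rw [div_le_iff₀ (by positivity)]
    push_cast; linarith
  set a := 1 * (1 - β ^ (-((J * q : ℕ) : ℤ))) with ha
  set L := 0 + J * q with hL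
  have hai : IsIntegral ℤ a := by
    rw [ha, one_mul]; exact isIntegral_one.sub (hint _)
  obtain ⟨j0, _, hj0⟩ := Finset.exists_max_image (Finset.Icc (-(J : ℤ)) (L + J))
    (fun j => dd (a * β ^ j)) ⟨0, by simp only [Finset.mem_Icc]; omega⟩
  have hlt : dd (a * β ^ j0) < 1 / 2 := not_half_of_integral (hai.mul (hint j0))
  refine ⟨a, L, _, _, max (3 / 10) (dd (a * β ^ j0)), hst, hw, by positivity,
    max_lt (by norm_num) hlt, fun j => ?_⟩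
  by_cases h1 : j ≤ -(J : ℤ)
  · refine le_max_of_le_left ?_
    have := hst.dd_le_zpow hβ j
    have h2 : β ^ j ≤ β ^ (-(J : ℤ)) := zpow_le_zpow_right₀ hβ.le h1
    linarith
  · by_cases h2 : (L : ℤ) + J ≤ j
    · refine le_max_of_le_left ?_
      have h3 := hst.reflect hz j
      have h4 := hst.dd_le_zpow hβ ((L : ℤ) - j)
      have h5 : β ^ ((L : ℤ) - j) ≤ β ^ (-(J : ℤ)) := zpow_le_zpow_right₀ hβ.le (by omega)
      linarith
    · exact le_max_of_le_right (hj0 j (by simp only [Finset.mem_Icc]; omega))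

lemma base (hβ : 1 < β) (hz : ‖z‖ = 1) (hint : ∀ j : ℤ, IsIntegral ℤ (β ^ j))
    (htr : ∀ j : ℤ, ∃ k : ℤ, β ^ j + β ^ (-j) + 2 * (z ^ j).re = k) :
    ∃ ρ : ℝ, 0 ≤ ρ ∧ ρ < 1 / 2 ∧ ∀ H : ℝ, ∃ h D : ℝ, H ≤ h ∧
      40 * (51 * (1 - β⁻¹)⁻¹ + 136) ≤ D ∧ Inv β z ρ h D := by
  obtain ⟨a, L, σ, w, r, hst, hw, hr0, hr, hm⟩ := base0 hβ hz hint htr
  refine ⟨(r + 1 / 2) / 2, by linarith, by linarith, fun H => ?_⟩
  set g := (1 / 2 - r) / 2 with hg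
  have hg0 : 0 < g := by linarith
  obtain ⟨G, hG0, hG⟩ := exists_zpow_neg_le hβ (x := g / 4) (by positivity)
  set R := L + 2 * G with hR
  have hR1 : 1 ≤ R := by omega
  have hR1' : (1 : ℝ) ≤ R := by exact_mod_cast hR1
  obtain ⟨t, ht⟩ := exists_nat_ge (max (7 * (R : ℝ)) (max H (16 / g)))
  have ht1 : 7 * (R : ℝ) ≤ t := (le_max_left _ _).trans ht
  have ht2 : H ≤ t := ((le_max_left _ _).trans (le_max_right _ _)).trans ht
  have ht3 : 16 / g ≤ t := ((le_max_right _ _).trans (le_max_right _ _)).trans ht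
  have ht0 : (1 : ℝ) ≤ t := by linarith
  have ht0' : 0 < t := by exact_mod_cast (by linarith : (0 : ℝ) < t)
  set h : ℝ := 2 * R * t with hh
  have hth : (t : ℝ) ≤ h := by nlinarith
  have h1 : 1 ≤ h := by linarith
  have h0 : 0 < h := by linarith
  set Q := 2 * R ^ 2 * t ^ 3 with hQ
  have hQr : (Q : ℝ) = 2 * R ^ 2 * t ^ 3 := by rw [hQ]; push_cast; ring
  have hQ0 : 0 < Q := by positivity
  have hQ0' : (0 : ℝ) < Q := by exact_mod_cast hQ0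
  obtain ⟨q, hq0, hqQ, hq⟩ := dirichlet_unit hz hQ0
  have hRq : R ≤ R * q := Nat.le_mul_of_pos_right R hq0
  have hM1 : β ^ (-((R * q : ℕ) : ℤ)) ≤ 1 / 2 :=
    (zpow_neg_anti hβ (by omega : G ≤ R * q)).trans (by linarith)
  have e2 : 2 * R * q = 2 * (R * q) := by ring
  have hM2 : β ^ (-((2 * R * q : ℕ) : ℤ)) ≤ 1 / 2 :=
    (zpow_neg_anti hβ (by omega : G ≤ 2 * R * q)).trans (by linarith)
  have hst1 := hst.step hβ hz (R * q) hM1
  have hm1 := hst.step_margin hβ hz (R * q) G hM1 (by omega) hm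
  have hst2 := hst1.step hβ hz (2 * R * q) hM2
  have hm2 := hst1.step_margin hβ hz (2 * R * q) G hM2 (by omega) hm1
  have hz1 : ‖z ^ (R * q) - 1‖ ≤ 7 * R / Q :=
    (hq R).trans (by gcongr; linarith)
  have hz2 : ‖z ^ (2 * R * q) - 1‖ ≤ 14 * R / Q := by
    refine (hq (2 * R)).trans ?_
    push_cast
    calc 7 * (2 * (R : ℝ)) / (Q + 1) ≤ 7 * (2 * (R : ℝ)) / Q := by gcongr; linarith
      _ = _ := by ring
  have hw1 : ‖w * (1 - z ^ (-((R * q : ℕ) : ℤ)))‖ ≤ 1 / 10 * (7 * R / Q) := by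
    rw [norm_mul, norm_one_sub_zpow_neg hz]; gcongr
  have hw1' : ‖w * (1 - z ^ (-((R * q : ℕ) : ℤ)))‖ ≤ 1 / h := by
    refine hw1.trans ?_
    rw [hQr, hh, mul_div_assoc', div_le_div_iff₀ (by positivity) (by positivity)]
    have : (t : ℝ) ≤ t ^ 3 := by
      calc (t : ℝ) = t ^ 1 := by ring
        _ ≤ t ^ 3 := pow_le_pow_right₀ ht0 (by norm_num)
    have h3 : (0 : ℝ) < R ^ 2 := by positivity
    nlinarith
  have hw2 : ‖w * (1 - z ^ (-((R * q : ℕ) : ℤ))) * (1 - z ^ (-((2 * R * q : ℕ) : ℤ)))‖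
      ≤ 1 / h ^ 4 := by
    rw [norm_mul, norm_one_sub_zpow_neg hz]
    calc _ ≤ 1 / 10 * (7 * (R : ℝ) / Q) * (14 * R / Q) := by gcongr
      _ = (49 / 20) / ((R : ℝ) ^ 2 * t ^ 6) := by rw [hQr]; field_simp; norm_num
      _ ≤ 1 / h ^ 4 := by
        rw [hh, div_le_div_iff₀ (by positivity) (by positivity)]
        have h3 : 49 * (R : ℝ) ^ 2 ≤ t ^ 2 := by nlinarith
        have h4 : (0 : ℝ) < R ^ 2 * t ^ 4 := by positivity
        nlinarith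
  refine ⟨h, max (h ^ 8 + (1 - β⁻¹)⁻¹) (40 * (51 * (1 - β⁻¹)⁻¹ + 136)), by linarith,
    le_max_right _ _, _, _, _, _, hst2, hw2, ?_, fun j => ?_, fun N hN => ?_⟩
  · have hq' : (q : ℝ) ≤ Q := by exact_mod_cast hqQ
    have hLR : (L : ℝ) ≤ R := by exact_mod_cast (by omega : L ≤ R)
    have hQ1 : (1 : ℝ) ≤ Q := by exact_mod_cast hQ0
    push_cast
    calc (L : ℝ) + R * q + 2 * R * q ≤ R * Q + R * Q + 2 * R * Q := by
          gcongr; nlinarith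
      _ = h ^ 3 := by rw [hQr, hh]; ring
  · have h2 := hm2 j
    have h3 : 1 / h ^ 4 ≤ 1 / h := by
      apply one_div_le_one_div_of_le h0
      calc h = h ^ 1 := by ring
        _ ≤ h ^ 4 := pow_le_pow_right₀ h1 (by norm_num)
    have h4 : 1 / h ≤ g / 16 := by
      rw [div_le_div_iff₀ h0 (by norm_num)]
      rw [div_le_iff₀ hg0] at ht3
      nlinarith
    have h5 : 4 / h = 4 * (1 / h) := by ring
    linarith
  · exact (hst2.energy_trivial hβ N).mono (le_max_of_le_left (by linarith))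

end Crest.Agent.R104
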