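import Mathlib
import Crest.Agent.R104.CharFun

/-! A second-moment criterion for singularity of a Bernoulli convolution. -/

set_option autoImplicit false

namespace Crest.Agent.R104

open MeasureTheory Filter Topology Crest.AnalysisR

lemma mutSing_of_approx (μ ν : Measure ℝ)
    (h : ∀ δ : ℝ, 0 < δ → ∃ A : Set ℝ, MeasurableSet A ∧ μ Aᶜ ≤ ENNReal.ofReal δ ∧
      ν A ≤ ENNReal.ofReal δ) : μ.MutuallySingular ν := by
  choose A hAm hA1 hA2 using fun k : ℕ => h ((1 / 2 : ℝ) ^ k) (by positivity)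
  have hsum : ∑' k : ℕ, ENNReal.ofReal ((1 / 2 : ℝ) ^ k) ≠ ⊤ := by
    rw [← ENNReal.ofReal_tsum_of_nonneg (fun k => by positivity) summable_geometric_two]
    exact ENNReal.ofReal_ne_top
  have h1 : μ (limsup (fun k => (A k)ᶜ) atTop) = 0 :=
    measure_limsup_atTop_eq_zero (ne_top_of_le_ne_top hsum (ENNReal.tsum_le_tsum hA1))
  have h2 : ν (limsup A atTop) = 0 :=
    measure_limsup_atTop_eq_zero (ne_top_of_le_ne_top hsum (ENNReal.tsum_le_tsum hA2))
  refine ⟨limsup (fun k => (A k)ᶜ) atTop, ?_, h1, measure_mono_null ?_ h2⟩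
  · exact MeasurableSet.measurableSet_limsup fun k => (hAm k).compl
  · intro x hx
    rw [Set.mem_compl_iff, mem_limsup_iff_frequently_mem, not_frequently] at hx
    rw [mem_limsup_iff_frequently_mem]
    exact (hx.mono fun k hk => by simpa using hk).frequently

lemma integrable_cos_mul (μ : Measure ℝ) [IsFiniteMeasure μ] (ξ : ℝ) :
    Integrable (fun x => Real.cos (ξ * x)) μ :=
  Integrable.of_bound (by fun_prop) 1
    (Eventually.of_forall fun x => by simpa using Real.abs_cos_le_one _)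

/-- the test function -/
noncomputable def testF (N : ℕ) (w ξ : ℕ → ℝ) (x : ℝ) : ℝ :=
  ∑ n ∈ Finset.range N, w n * Real.cos (ξ n * x)

lemma continuous_testF (N : ℕ) (w ξ : ℕ → ℝ) : Continuous (testF N w ξ) := by
  unfold testF; fun_prop

lemma integrable_testF (μ : Measure ℝ) [IsFiniteMeasure μ] (N : ℕ) (w ξ : ℕ → ℝ) :
    Integrable (testF N w ξ) μ :=
  integrable_finsetSum _ fun _ _ => (integrable_cos_mul μ _).const_mul _

lemma integral_testF (μ : Measure ℝ) [IsFiniteMeasure μ] (N : ℕ) (w ξ : ℕ → ℝ) :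
    ∫ x, testF N w ξ x ∂μ = ∑ n ∈ Finset.range N, w n * cosT μ (ξ n) := by
  unfold testF
  rw [integral_finsetSum _ fun n _ => (integrable_cos_mul μ _).const_mul _]
  simp_rw [integral_const_mul, cosT]

lemma testF_sq (N : ℕ) (w ξ : ℕ → ℝ) (x : ℝ) :
    testF N w ξ x ^ 2 = ∑ n ∈ Finset.range N, ∑ m ∈ Finset.range N,
      (w n * w m / 2) * (Real.cos ((ξ n - ξ m) * x) + Real.cos ((ξ n + ξ m) * x)) := by
  unfold testF
  rw [sq, Finset.sum_mul_sum]
  refine Finset.sum_congr rfl fun n _ => Finset.sum_congr rfl fun m _ => ?_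
  rw [sub_mul, add_mul, Real.cos_sub, Real.cos_add]
  ring

lemma integrable_testF_sq (μ : Measure ℝ) [IsFiniteMeasure μ] (N : ℕ) (w ξ : ℕ → ℝ) :
    Integrable (fun x => testF N w ξ x ^ 2) μ := by
  simp_rw [testF_sq]
  exact integrable_finsetSum _ fun n _ => integrable_finsetSum _ fun m _ =>
    ((integrable_cos_mul μ _).add (integrable_cos_mul μ _)).const_mul _

lemma integral_testF_sq (μ : Measure ℝ) [IsFiniteMeasure μ] (N : ℕ) (w ξ : ℕ → ℝ) :
    ∫ x, testF N w ξ x ^ 2 ∂μ = ∑ n ∈ Finset.range N, ∑ m ∈ Finset.range N,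
      (w n * w m / 2) * (cosT μ (ξ n - ξ m) + cosT μ (ξ n + ξ m)) := by
  simp_rw [testF_sq]
  have hI : ∀ n m, Integrable (fun x => (w n * w m / 2) *
      (Real.cos ((ξ n - ξ m) * x) + Real.cos ((ξ n + ξ m) * x))) μ := fun n m =>
    ((integrable_cos_mul μ _).add (integrable_cos_mul μ _)).const_mul _
  rw [integral_finsetSum _ fun n _ => integrable_finsetSum _ fun m _ => hI n m]
  refine Finset.sum_congr rfl fun n _ => ?_
  rw [integral_finsetSum _ fun m _ => hI n m]
  refine Finset.sum_congr rfl fun m _ => ?_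
  rw [integral_const_mul, integral_add (integrable_cos_mul μ _) (integrable_cos_mul μ _)]
  rfl

lemma cheb (μ : Measure ℝ) [IsFiniteMeasure μ] (f : ℝ → ℝ) (hf : Integrable (fun x => f x ^ 2) μ)
    (A : Set ℝ) (hA : ∀ x ∈ A, 1 / 4 ≤ f x ^ 2) (δ : ℝ) (hδ : 4 * ∫ x, f x ^ 2 ∂μ ≤ δ) :
    μ A ≤ ENNReal.ofReal δ := by
  have h := mul_meas_ge_le_integral_of_nonneg (μ := μ) (f := fun x => f x ^ 2)
    (Eventually.of_forall fun x => sq_nonneg _) hf (1 / 4)
  have h2 : μ A ≤ μ {x | 1 / 4 ≤ f x ^ 2} := measure_mono hA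
  refine h2.trans ?_
  rw [← ofReal_measureReal (measure_ne_top _ _)]
  exact ENNReal.ofReal_le_ofReal (by linarith)

lemma abs_prod_one_add_sub_one_le (s : Finset ℕ) (u : ℕ → ℝ) (T : ℝ)
    (hT : ∑ i ∈ s, |u i| ≤ T) :
    |∏ i ∈ s, (1 + u i) - 1| ≤ Real.exp T * ∑ i ∈ s, |u i| := by
  have h := s.norm_prod_one_add_sub_one_le u
  simp only [Real.norm_eq_abs] at h
  set R := ∑ i ∈ s, |u i| with hR
  have hR0 : 0 ≤ R := Finset.sum_nonneg fun i _ => abs_nonneg _
  have h1 : Real.exp R - 1 ≤ Real.exp R * R := by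
    have := Real.add_one_le_exp (-R)
    have h2 : Real.exp R * Real.exp (-R) = 1 := by rw [← Real.exp_add]; simp
    nlinarith [Real.exp_pos R]
  have h3 : Real.exp R ≤ Real.exp T := Real.exp_le_exp.2 hT
  calc _ ≤ Real.exp R - 1 := h
    _ ≤ Real.exp R * R := h1
    _ ≤ Real.exp T * R := by gcongr

lemma exp_neg_tan_sq_le {x : ℝ} (hx : Real.cos x ≠ 0) :
    Real.exp (-(Real.tan x ^ 2)) ≤ Real.cos x ^ 2 := by
  rw [← Real.inv_one_add_tan_sq hx, Real.exp_neg]
  apply inv_anti₀ (by positivity)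
  linarith [Real.add_one_le_exp (Real.tan x ^ 2)]

lemma sum_shift_le (f : ℕ → ℝ) (hf : ∀ i, 0 ≤ f i) (T : ℝ)
    (hT : ∀ K, ∑ i ∈ Finset.range K, f i ≤ T) (n K : ℕ) :
    ∑ k ∈ Finset.range K, f (n + k) ≤ T := by
  have := hT (n + K)
  rw [Finset.sum_range_add] at this
  have h0 : 0 ≤ ∑ i ∈ Finset.range n, f i := Finset.sum_nonneg fun i _ => hf i
  linarith

section main
variable {c η T U : ℝ}

lemma prod_sq_ge (hcos : ∀ i : ℕ, Real.cos (η * c ^ i) ≠ 0)
    (hT : ∀ K, ∑ i ∈ Finset.range K, Real.tan (η * c ^ i) ^ 2 ≤ T) (n K : ℕ) :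
    Real.exp (-T) ≤ (∏ k ∈ Finset.range K, Real.cos (η * c ^ n * c ^ k)) ^ 2 := by
  rw [← Finset.prod_pow]
  have h1 := sum_shift_le (fun i => Real.tan (η * c ^ i) ^ 2) (fun i => sq_nonneg _) T hT n K
  calc Real.exp (-T) ≤ Real.exp (∑ k ∈ Finset.range K, -(Real.tan (η * c ^ (n + k)) ^ 2)) := by
        rw [Finset.sum_neg_distrib]; exact Real.exp_le_exp.2 (by linarith)
    _ = ∏ k ∈ Finset.range K, Real.exp (-(Real.tan (η * c ^ (n + k)) ^ 2)) := Real.exp_sum _ _
    _ ≤ _ := by
        refine Finset.prod_le_prod (fun k _ => (Real.exp_pos _).le) fun k _ => ?_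
        rw [mul_assoc, ← pow_add]
        exact exp_neg_tan_sq_le (hcos _)

lemma cosT_sq_ge (hc : 0 ≤ c) (hc1 : c < 1) (hcos : ∀ i : ℕ, Real.cos (η * c ^ i) ≠ 0)
    (hT : ∀ K, ∑ i ∈ Finset.range K, Real.tan (η * c ^ i) ^ 2 ≤ T) (n : ℕ) :
    Real.exp (-T) ≤ cosT (bernoulliConvolution c) (η * c ^ n) ^ 2 :=
  ge_of_tendsto' ((tendsto_cosProd hc hc1 (η * c ^ n)).pow 2) fun K => prod_sq_ge hcos hT n K

/-- finite-level identity -/
lemma prod_pair (hcos : ∀ i : ℕ, Real.cos (η * c ^ i) ≠ 0) (n m K : ℕ) (s : ℝ)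
    (hs : s = 1 ∨ s = -1) :
    (∏ k ∈ Finset.range K, Real.cos ((η * c ^ n - s * (η * c ^ m)) * c ^ k)) /
      ((∏ k ∈ Finset.range K, Real.cos (η * c ^ n * c ^ k)) *
        (∏ k ∈ Finset.range K, Real.cos (η * c ^ m * c ^ k)))
      = ∏ k ∈ Finset.range K,
        (1 + s * (Real.tan (η * c ^ (n + k)) * Real.tan (η * c ^ (m + k)))) := by
  rw [← Finset.prod_mul_distrib, ← Finset.prod_div_distrib]
  refine Finset.prod_congr rfl fun k _ => ?_
  have h1 := hcos (n + k)
  have h2 := hcos (m + k)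
  have e1 : η * c ^ n * c ^ k = η * c ^ (n + k) := by ring
  have e2 : η * c ^ m * c ^ k = η * c ^ (m + k) := by ring
  have e3 : (η * c ^ n - s * (η * c ^ m)) * c ^ k = η * c ^ (n + k) - s * (η * c ^ (m + k)) := by
    ring
  rw [e1, e2, e3, Real.tan_eq_sin_div_cos, Real.tan_eq_sin_div_cos]
  rcases hs with rfl | rfl
  · rw [one_mul, Real.cos_sub]; field_simp
  · rw [neg_one_mul, sub_neg_eq_add, Real.cos_add]; field_simp; ring

lemma var_finite (hcos : ∀ i : ℕ, Real.cos (η * c ^ i) ≠ 0)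
    (hT : ∀ K, ∑ i ∈ Finset.range K, Real.tan (η * c ^ i) ^ 2 ≤ T)
    (hU : ∀ K, ∑ i ∈ Finset.range K, |Real.tan (η * c ^ i)| ≤ U) (N K : ℕ) (s : ℝ)
    (hs : s = 1 ∨ s = -1) :
    ∑ n ∈ Finset.range N, ∑ m ∈ Finset.range N,
      (∏ k ∈ Finset.range K, Real.cos ((η * c ^ n - s * (η * c ^ m)) * c ^ k)) /
      ((∏ k ∈ Finset.range K, Real.cos (η * c ^ n * c ^ k)) *
        (∏ k ∈ Finset.range K, Real.cos (η * c ^ m * c ^ k)))
      ≤ (N : ℝ) ^ 2 + Real.exp T * (N * U ^ 2) := by
  set τ : ℕ → ℝ := fun i => Real.tan (η * c ^ i) with hτ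
  have hs1 : |s| = 1 := by rcases hs with rfl | rfl <;> simp
  have hU0 : 0 ≤ U := by simpa using hU 0
  have key : ∀ n m, (∏ k ∈ Finset.range K, (1 + s * (τ (n + k) * τ (m + k))))
      ≤ 1 + Real.exp T * ∑ k ∈ Finset.range K, |τ (n + k)| * |τ (m + k)| := by
    intro n m
    have e : ∀ k, |s * (τ (n + k) * τ (m + k))| = |τ (n + k)| * |τ (m + k)| := by
      intro k; rw [abs_mul, hs1, one_mul, abs_mul]
    have hb : ∑ k ∈ Finset.range K, |s * (τ (n + k) * τ (m + k))| ≤ T := by
      have h1 := sum_shift_le (fun i => τ i ^ 2) (fun i => sq_nonneg _) T hT n K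
      have h2 := sum_shift_le (fun i => τ i ^ 2) (fun i => sq_nonneg _) T hT m K
      have h3 : ∑ k ∈ Finset.range K, |s * (τ (n + k) * τ (m + k))|
          ≤ ∑ k ∈ Finset.range K, (τ (n + k) ^ 2 + τ (m + k) ^ 2) / 2 := by
        refine Finset.sum_le_sum fun k _ => ?_
        rw [e, ← sq_abs (τ (n + k)), ← sq_abs (τ (m + k))]
        nlinarith [sq_nonneg (|τ (n + k)| - |τ (m + k)|)]
      rw [← Finset.sum_div, Finset.sum_add_distrib] at h3
      linarith
    have := abs_prod_one_add_sub_one_le (Finset.range K) (fun k => s * (τ (n + k) * τ (m + k))) T hb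
    simp_rw [e] at this
    linarith [le_abs_self (∏ k ∈ Finset.range K, (1 + s * (τ (n + k) * τ (m + k))) - 1)]
  simp_rw [prod_pair hcos _ _ _ s hs]
  calc _ ≤ ∑ n ∈ Finset.range N, ∑ m ∈ Finset.range N,
        (1 + Real.exp T * ∑ k ∈ Finset.range K, |τ (n + k)| * |τ (m + k)|) :=
        Finset.sum_le_sum fun n _ => Finset.sum_le_sum fun m _ => key n m
    _ = (N : ℝ) ^ 2 + Real.exp T * ∑ n ∈ Finset.range N, ∑ k ∈ Finset.range K,
          |τ (n + k)| * ∑ m ∈ Finset.range N, |τ (k + m)| := by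
        simp_rw [Finset.sum_add_distrib, ← Finset.mul_sum]
        congr 1
        · simp [sq]
        · congr 1
          refine Finset.sum_congr rfl fun n _ => ?_
          rw [Finset.sum_comm]
          refine Finset.sum_congr rfl fun k _ => ?_
          rw [Finset.mul_sum]
          simp_rw [add_comm k]
    _ ≤ (N : ℝ) ^ 2 + Real.exp T * ∑ n ∈ Finset.range N, U ^ 2 := by
        gcongr with n hn
        calc _ ≤ ∑ k ∈ Finset.range K, |τ (n + k)| * U := by
              gcongr with k hk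
              exact sum_shift_le (fun i => |τ i|) (fun i => abs_nonneg _) U hU k N
          _ = (∑ k ∈ Finset.range K, |τ (n + k)|) * U := by rw [Finset.sum_mul]
          _ ≤ U * U := by
              gcongr
              exact sum_shift_le (fun i => |τ i|) (fun i => abs_nonneg _) U hU n K
          _ = U ^ 2 := by ring
    _ = _ := by simp

lemma var_limit (hc : 0 ≤ c) (hc1 : c < 1) (hcos : ∀ i : ℕ, Real.cos (η * c ^ i) ≠ 0)
    (hT : ∀ K, ∑ i ∈ Finset.range K, Real.tan (η * c ^ i) ^ 2 ≤ T)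
    (hU : ∀ K, ∑ i ∈ Finset.range K, |Real.tan (η * c ^ i)| ≤ U) (N : ℕ) (s : ℝ)
    (hs : s = 1 ∨ s = -1) :
    ∑ n ∈ Finset.range N, ∑ m ∈ Finset.range N,
      cosT (bernoulliConvolution c) (η * c ^ n - s * (η * c ^ m)) /
      (cosT (bernoulliConvolution c) (η * c ^ n) * cosT (bernoulliConvolution c) (η * c ^ m))
      ≤ (N : ℝ) ^ 2 + Real.exp T * (N * U ^ 2) := by
  have hne : ∀ n : ℕ, cosT (bernoulliConvolution c) (η * c ^ n) ≠ 0 := by
    intro n h0
    have := cosT_sq_ge hc hc1 hcos hT n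
    rw [h0] at this
    linarith [Real.exp_pos (-T)]
  refine le_of_tendsto' (tendsto_finsetSum _ fun n _ => tendsto_finsetSum _ fun m _ =>
    (tendsto_cosProd hc hc1 _).div ((tendsto_cosProd hc hc1 _).mul (tendsto_cosProd hc hc1 _))
      (mul_ne_zero (hne n) (hne m))) fun K => ?_
  exact var_finite hcos hT hU N K s hs

end main

lemma exp_neg_half_sq_le {y N : ℝ} (hN : 0 < N) (h : N ≤ y ^ 2) :
    Real.exp (-(y ^ 2 / 2)) ≤ 2 / N := by
  rw [Real.exp_neg]
  have h1 := Real.add_one_le_exp (y ^ 2 / 2)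
  calc (Real.exp (y ^ 2 / 2))⁻¹ ≤ (N / 2)⁻¹ := inv_anti₀ (by positivity) (by linarith)
    _ = 2 / N := by field_simp

theorem criterion {c : ℝ} (hc : 0 < c) (hc1 : c < 1)
    (h : ∀ δ : ℝ, 0 < δ → ∃ (η : ℝ) (N : ℕ) (T U : ℝ), 0 < η ∧ 1 ≤ N ∧
      (N : ℝ) ≤ (η * c ^ N * (1 - c)) ^ 2 ∧ (∀ i : ℕ, Real.cos (η * c ^ i) ≠ 0) ∧
      (∀ K, ∑ i ∈ Finset.range K, Real.tan (η * c ^ i) ^ 2 ≤ T) ∧
      (∀ K, ∑ i ∈ Finset.range K, |Real.tan (η * c ^ i)| ≤ U) ∧
      Real.exp T * (1 + U ^ 2) ≤ δ * N) :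
    (bernoulliConvolution c).MutuallySingular (volume : Measure ℝ) := by
  have := bc_prob hc.le hc1
  refine Measure.MutuallySingular.mono_ac (μ₁ := bernoulliConvolution c)
    (ν₁ := ProbabilityTheory.gaussianReal 0 1) ?_ Measure.AbsolutelyContinuous.rfl
    (ProbabilityTheory.gaussianReal_absolutelyContinuous' 0 one_ne_zero)
  refine mutSing_of_approx _ _ fun δ hδ => ?_
  obtain ⟨η, N, T, U, hη, hN, hsep, hcos, hT, hU, hδN⟩ := h (δ / 16) (by positivity)
  set ν := bernoulliConvolution c with hν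
  set P : ℕ → ℝ := fun n => cosT ν (η * c ^ n) with hP
  have hPsq : ∀ n, Real.exp (-T) ≤ P n ^ 2 := fun n => cosT_sq_ge hc.le hc1 hcos hT n
  have hne : ∀ n, P n ≠ 0 := by
    intro n h0
    have := hPsq n
    rw [h0] at this
    linarith [Real.exp_pos (-T)]
  have hN0 : (0 : ℝ) < N := by exact_mod_cast hN
  set w : ℕ → ℝ := fun n => 1 / (N * P n) with hw
  set ξ : ℕ → ℝ := fun n => η * c ^ n with hξ
  set φ := testF N w ξ with hφ
  have heT : Real.exp T ≤ δ / 16 * N := by nlinarith [Real.exp_pos T, sq_nonneg U]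
  have heU : Real.exp T * U ^ 2 ≤ δ / 16 * N := by nlinarith [Real.exp_pos T, sq_nonneg U]
  refine ⟨{x | 1 / 2 ≤ φ x}, measurableSet_le measurable_const (continuous_testF _ _ _).measurable,
    ?_, ?_⟩
  · -- under ν
    have hI1 : ∫ x, φ x ∂ν = 1 := by
      rw [hφ, integral_testF]
      have : ∀ n ∈ Finset.range N, w n * cosT ν (ξ n) = 1 / N := by
        intro n _
        have := hne n
        simp only [hw, hξ]
        change 1 / (N * P n) * P n = _
        field_simp
      rw [Finset.sum_congr rfl this]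
      simp only [Finset.sum_const, Finset.card_range, nsmul_eq_mul]
      field_simp
    have hI2 : ∫ x, φ x ^ 2 ∂ν ≤ 1 + δ / 16 := by
      rw [hφ, integral_testF_sq]
      have h1 := var_limit hc.le hc1 hcos hT hU N 1 (Or.inl rfl)
      have h2 := var_limit hc.le hc1 hcos hT hU N (-1) (Or.inr rfl)
      simp only [one_mul, neg_mul, sub_neg_eq_add] at h1 h2
      have e : ∑ n ∈ Finset.range N, ∑ m ∈ Finset.range N,
          (w n * w m / 2) * (cosT ν (ξ n - ξ m) + cosT ν (ξ n + ξ m))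
          = (1 / (2 * (N : ℝ) ^ 2)) * ((∑ n ∈ Finset.range N, ∑ m ∈ Finset.range N,
            cosT ν (η * c ^ n - η * c ^ m) / (P n * P m)) +
            (∑ n ∈ Finset.range N, ∑ m ∈ Finset.range N,
            cosT ν (η * c ^ n + η * c ^ m) / (P n * P m))) := by
        rw [← Finset.sum_add_distrib, Finset.mul_sum]
        refine Finset.sum_congr rfl fun n _ => ?_
        rw [← Finset.sum_add_distrib, Finset.mul_sum]
        refine Finset.sum_congr rfl fun m _ => ?_
        have := hne n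
        have := hne m
        simp only [hw, hξ]
        field_simp
      rw [e]
      calc _ ≤ (1 / (2 * (N : ℝ) ^ 2)) * (((N : ℝ) ^ 2 + Real.exp T * (N * U ^ 2)) +
            ((N : ℝ) ^ 2 + Real.exp T * (N * U ^ 2))) := by gcongr
        _ = 1 + Real.exp T * U ^ 2 / N := by field_simp; ring
        _ ≤ 1 + δ / 16 := by
            have : Real.exp T * U ^ 2 / N ≤ δ / 16 := by rw [div_le_iff₀ hN0]; exact heU
            linarith
    have hint1 := integrable_testF ν N w ξ
    have hint2 := integrable_testF_sq ν N w ξ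
    have e3 : (fun x => (φ x - 1) ^ 2) = fun x => (φ x ^ 2 - 2 * φ x) + 1 := by
      ext x; ring
    have hint3 : Integrable (fun x => φ x ^ 2 - 2 * φ x) ν := hint2.sub (hint1.const_mul 2)
    refine cheb ν (fun x => φ x - 1) ?_ _ ?_ δ ?_
    · rw [e3]; exact hint3.add (integrable_const _)
    · intro x hx
      simp only [Set.mem_compl_iff, Set.mem_ofPred_eq, not_le] at hx
      nlinarith
    · rw [e3, integral_add hint3 (integrable_const _), integral_sub hint2 (hint1.const_mul 2),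
        integral_const_mul, hI1]
      simp only [integral_const, probReal_univ, smul_eq_mul]
      linarith
  · -- under the Gaussian
    refine cheb _ φ (integrable_testF_sq _ N w ξ) _ ?_ δ ?_
    · intro x hx
      simp only [Set.mem_ofPred_eq] at hx
      nlinarith
    · rw [hφ, integral_testF_sq]
      simp_rw [cosT_gauss]
      have hww : ∀ n m, w n * w m ≤ Real.exp T / (N : ℝ) ^ 2 := by
        intro n m
        have h1 : ∀ n, w n ^ 2 ≤ Real.exp T / (N : ℝ) ^ 2 := by
          intro n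
          have h2 := hPsq n
          have h3 : 0 < P n ^ 2 := lt_of_lt_of_le (Real.exp_pos _) h2
          simp only [hw]
          rw [div_pow, mul_pow, one_pow, div_le_div_iff₀ (by positivity) (by positivity)]
          have h4 : Real.exp T * Real.exp (-T) = 1 := by rw [← Real.exp_add]; simp
          have h5 : 1 ≤ Real.exp T * P n ^ 2 := by nlinarith [Real.exp_pos T]
          nlinarith [sq_pos_of_pos hN0]
        nlinarith [h1 n, h1 m, sq_nonneg (w n - w m)]
      have hsepn : ∀ n, n < N → η * c ^ N * (1 - c) ≤ η * c ^ n * (1 - c) := by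
        intro n hn
        have : c ^ N ≤ c ^ n := pow_le_pow_of_le_one hc.le hc1.le hn.le
        have : 0 ≤ 1 - c := by linarith
        gcongr
      have hy0 : 0 ≤ η * c ^ N * (1 - c) := by
        have : 0 ≤ 1 - c := by linarith
        positivity
      have hlt : ∀ n m, n < m → n < N → (N : ℝ) ≤ (ξ n - ξ m) ^ 2 := by
        intro n m hnm hn
        refine hsep.trans (pow_le_pow_left₀ hy0 ((hsepn n hn).trans ?_) 2)
        have : c ^ m ≤ c ^ (n + 1) := pow_le_pow_of_le_one hc.le hc1.le hnm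
        simp only [hξ]
        rw [pow_succ] at this
        nlinarith
      have hG1 : ∀ n ∈ Finset.range N, ∀ m ∈ Finset.range N,
          Real.exp (-((ξ n - ξ m) ^ 2 / 2)) ≤ (if n = m then 1 else 0) + 2 / N := by
        intro n hn m hm
        rw [Finset.mem_range] at hn hm
        rcases lt_trichotomy n m with hlt' | rfl | hlt'
        · rw [if_neg hlt'.ne, zero_add]; exact exp_neg_half_sq_le hN0 (hlt n m hlt' hn)
        · simp; positivity
        · rw [if_neg hlt'.ne', zero_add]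
          refine exp_neg_half_sq_le hN0 ?_
          have := hlt m n hlt' hm
          nlinarith
      have hG2 : ∀ n ∈ Finset.range N, ∀ m ∈ Finset.range N,
          Real.exp (-((ξ n + ξ m) ^ 2 / 2)) ≤ 2 / N := by
        intro n hn m hm
        rw [Finset.mem_range] at hn hm
        refine exp_neg_half_sq_le hN0 (hsep.trans (pow_le_pow_left₀ hy0 ((hsepn n hn).trans ?_) 2))
        simp only [hξ]
        have h1 : 0 < η * c ^ n := by positivity
        have h2 : 0 < η * c ^ m := by positivity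
        nlinarith
      have hsum : ∑ n ∈ Finset.range N, ∑ m ∈ Finset.range N, (w n * w m / 2) *
          (Real.exp (-((ξ n - ξ m) ^ 2 / 2)) + Real.exp (-((ξ n + ξ m) ^ 2 / 2)))
          ≤ ∑ n ∈ Finset.range N, ∑ m ∈ Finset.range N, (Real.exp T / (N : ℝ) ^ 2 / 2) *
            ((if n = m then 1 else 0) + 4 / N) := by
        refine Finset.sum_le_sum fun n hn => Finset.sum_le_sum fun m hm => ?_
        have h1 := hG1 n hn m hm
        have h2 := hG2 n hn m hm
        have h3 := hww n m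
        have h4 : 0 ≤ Real.exp (-((ξ n - ξ m) ^ 2 / 2)) + Real.exp (-((ξ n + ξ m) ^ 2 / 2)) := by
          positivity
        have h5 : (4 : ℝ) / N = 2 / N + 2 / N := by ring
        calc _ ≤ (Real.exp T / (N : ℝ) ^ 2 / 2) *
              (Real.exp (-((ξ n - ξ m) ^ 2 / 2)) + Real.exp (-((ξ n + ξ m) ^ 2 / 2))) := by
              gcongr
          _ ≤ _ := mul_le_mul_of_nonneg_left (by linarith) (by positivity)
      have hval : ∑ n ∈ Finset.range N, ∑ m ∈ Finset.range N, (Real.exp T / (N : ℝ) ^ 2 / 2) *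
            ((if n = m then 1 else 0) + 4 / N) = 5 / 2 * (Real.exp T / N) := by
        have : ∀ n ∈ Finset.range N, ∑ m ∈ Finset.range N, (Real.exp T / (N : ℝ) ^ 2 / 2) *
            ((if n = m then 1 else 0) + 4 / N) = (Real.exp T / (N : ℝ) ^ 2 / 2) * 5 := by
          intro n hn
          rw [← Finset.mul_sum, Finset.sum_add_distrib, Finset.sum_ite_eq, if_pos hn]
          simp only [Finset.sum_const, Finset.card_range, nsmul_eq_mul]
          congr 1
          field_simp; norm_num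
        rw [Finset.sum_congr rfl this]
        simp only [Finset.sum_const, Finset.card_range, nsmul_eq_mul]
        field_simp
      rw [hval] at hsum
      have : Real.exp T / N ≤ δ / 16 := by rw [div_le_iff₀ hN0]; exact heT
      linarith

end Crest.Agent.R104
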