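import Mathlib
import Crest.Agent.R104.Construct
import Crest.Agent.R104.Criterion

/-! Putting the construction and the criterion together. -/

set_option autoImplicit false

namespace Crest.Agent.R104

open MeasureTheory Crest.AnalysisR

lemma tan_bound {ρ x : ℝ} (hρ0 : 0 ≤ ρ) (hρ : ρ < 1 / 2) (hx : dd x ≤ ρ) :
    Real.cos (Real.pi * x) ≠ 0 ∧
      |Real.tan (Real.pi * x)| ≤ Real.pi / Real.cos (Real.pi * ρ) * dd x := by
  have hpi := Real.pi_pos
  set s := x - round x with hs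
  have e : Real.pi * x = Real.pi * s + (round x : ℤ) * Real.pi := by rw [hs]; ring
  have hds : dd x = |s| := rfl
  have hc0 : 0 < Real.cos (Real.pi * ρ) :=
    Real.cos_pos_of_mem_Ioo ⟨by nlinarith, by nlinarith⟩
  have hc1 : Real.cos (Real.pi * ρ) ≤ Real.cos (Real.pi * s) := by
    rw [← Real.cos_abs (Real.pi * s), abs_mul, abs_of_pos hpi]
    exact Real.cos_le_cos_of_nonneg_of_le_pi (by positivity) (by nlinarith)
      (by rw [← hds]; gcongr)
  have hc2 : 0 < Real.cos (Real.pi * s) := lt_of_lt_of_le hc0 hc1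
  constructor
  · rw [e, Real.cos_add_int_mul_pi]
    exact mul_ne_zero (zpow_ne_zero _ (by norm_num)) hc2.ne'
  · rw [e, Real.tan_add_int_mul_pi, Real.tan_eq_sin_div_cos, abs_div, abs_of_pos hc2, hds]
    have h1 : |Real.sin (Real.pi * s)| ≤ Real.pi * |s| := by
      have := Real.abs_sin_le_abs (x := Real.pi * s)
      rwa [abs_mul, abs_of_pos hpi] at this
    calc _ ≤ Real.pi * |s| / Real.cos (Real.pi * ρ) := by gcongr
      _ = _ := by ring

theorem salem_singular {β : ℝ} (hS : IsQuarticSalem β) :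
    (bernoulliConvolution β⁻¹).MutuallySingular (volume : Measure ℝ) := by
  have hβ : 1 < β := hS.1
  have hβ0 : 0 < β := by linarith
  have hc0 : 0 < β⁻¹ := inv_pos.2 hβ0
  have hc1 : β⁻¹ < 1 := inv_lt_one_of_one_lt₀ hβ
  obtain ⟨z, hz, htr⟩ := salem_trace hS
  obtain ⟨ρ, hρ0, hρ, hbase⟩ := base hβ hz (salem_zpow_integral hS) htr
  refine criterion hc0 hc1 fun δ hδ => ?_
  have hpi := Real.pi_pos
  have hcρ : 0 < Real.cos (Real.pi * ρ) :=
    Real.cos_pos_of_mem_Ioo ⟨by nlinarith, by nlinarith⟩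
  set C := Real.pi / Real.cos (Real.pi * ρ) with hC
  have hC0 : 0 < C := by positivity
  set κ := (1 - β⁻¹)⁻¹ with hκ
  have hκ0 : 0 < κ := inv_pos.2 (by linarith)
  set C' := C * (2 * κ + 5) with hC'
  set b := (β - 1) * (1 - β⁻¹) with hb
  have hb0 : 0 < b := mul_pos (by linarith) (by linarith)
  set A := 2 * (1 + C' ^ 2) / δ with hA
  have hA0 : 0 < A := by positivity
  obtain ⟨h0, D0, hH, hD0, hI0⟩ :=
    hbase (max (max (2 ^ 20) (1 / (β - 1))) (max (8 / b ^ 2) (A ^ 2)))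
  have g1 : 2 ^ 20 ≤ h0 := ((le_max_left _ _).trans (le_max_left _ _)).trans hH
  have g2 : 1 / (β - 1) ≤ h0 := ((le_max_right _ _).trans (le_max_left _ _)).trans hH
  have g3 : 8 / b ^ 2 ≤ h0 := ((le_max_left _ _).trans (le_max_right _ _)).trans hH
  have g4 : A ^ 2 ≤ h0 := ((le_max_right _ _).trans (le_max_right _ _)).trans hH
  have hD0' : 0 < D0 := by linarith
  obtain ⟨k, hk⟩ := exists_pow_lt_of_lt_one (x := 1 / (2 * C ^ 2 * D0)) (y := 43 / 44)
    (by positivity) (by norm_num)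
  obtain ⟨h, hh, hlog, a, L, σ, w, hst, hw, hL, hm, hE⟩ := inv_iter hβ hz g1
    (by rw [div_le_iff₀ (by linarith)] at g2; exact g2) hD0 hI0 k
  set D := (43 / 20) ^ k * D0 with hD
  have hh1 : (2 : ℝ) ^ 20 ≤ h := g1.trans hh
  have hh0 : 0 < h := by linarith
  have hh1' : (1 : ℝ) ≤ h := by linarith
  have hl0 : 1 ≤ Real.log h0 := by
    rw [Real.le_log_iff_exp_le (by linarith)]
    linarith [Real.exp_one_lt_d9]
  have hT : C ^ 2 * D ≤ Real.log h / 2 := by
    rw [lt_div_iff₀ (by positivity)] at hk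
    have e : ((43 : ℝ) / 20) ^ k = (43 / 44) ^ k * (11 / 5) ^ k := by
      rw [← mul_pow]; norm_num
    have hp : (0 : ℝ) < (11 / 5) ^ k := by positivity
    calc C ^ 2 * D = ((43 / 44) ^ k * (2 * C ^ 2 * D0)) * (11 / 5) ^ k / 2 := by
          rw [hD, e]; ring
      _ ≤ 1 * (11 / 5) ^ k / 2 := by gcongr
      _ = (11 / 5) ^ k * 1 / 2 := by ring
      _ ≤ (11 / 5) ^ k * Real.log h0 / 2 := by gcongr
      _ ≤ _ := by linarith
  set N := ⌊h ^ 7⌋₊ with hN
  have h7 : 2 ≤ h ^ 7 := by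
    calc (2 : ℝ) ≤ h ^ 1 := by linarith
      _ ≤ h ^ 7 := pow_le_pow_right₀ hh1' (by norm_num)
  have hN1 : (N : ℝ) ≤ h ^ 7 := Nat.floor_le (by positivity)
  have hN2 : h ^ 7 / 2 ≤ N := by
    have := Nat.lt_floor_add_one (h ^ 7)
    linarith
  have hN0 : 1 ≤ N := Nat.floor_pos.2 (by linarith)
  have ha0 := hst.a_pos hβ
  have key : ∀ i : ℕ, Real.pi * a * β ^ (2 * N) * β⁻¹ ^ i
      = Real.pi * (a * β ^ (((2 * N : ℕ) : ℤ) - i)) := by
    intro i
    rw [zpow_sub₀ hβ0.ne', zpow_natCast, zpow_natCast, inv_pow]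
    ring
  have hm' : ∀ j : ℤ, dd (a * β ^ j) ≤ ρ := fun j => (hm j).trans (by
    have : 0 < 4 / h := by positivity
    linarith)
  have h2N : ((2 * N : ℕ) : ℝ) ≤ h ^ 8 := by
    push_cast
    calc 2 * (N : ℝ) ≤ h * h ^ 7 := by gcongr; linarith
      _ = h ^ 8 := by ring
  have hinj : ∀ K : ℕ, Set.InjOn (fun i : ℕ => ((2 * N : ℕ) : ℤ) - i) (Finset.range K) := by
    intro K i _ j _ hij
    simp only at hij
    omega
  refine ⟨Real.pi * a * β ^ (2 * N), N, C ^ 2 * D, C' * h ^ 3, by positivity, hN0, ?_,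
    fun i => ?_, fun K => ?_, fun K => ?_, ?_⟩
  · -- separation
    have hLN : (L : ℝ) ≤ N / 2 := by
      have h4 : 4 ≤ h ^ 4 := by
        calc (4 : ℝ) ≤ h ^ 1 := by linarith
          _ ≤ h ^ 4 := pow_le_pow_right₀ hh1' (by norm_num)
      have h3 : 4 * h ^ 3 ≤ h ^ 7 := by
        calc 4 * h ^ 3 ≤ h ^ 4 * h ^ 3 := by gcongr
          _ = h ^ 7 := by ring
      linarith
    have hLN' : L ≤ N := by
      have : (L : ℝ) ≤ N := by linarith [Nat.cast_nonneg (α := ℝ) N]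
      exact_mod_cast this
    have e1 : β ^ (N - L) ≤ a * β ^ (((2 * N : ℕ) : ℤ) - N) := by
      have : β ^ (N - L) = β ^ (-(L : ℤ)) * β ^ (((2 * N : ℕ) : ℤ) - N) := by
        rw [← zpow_add₀ hβ0.ne', ← zpow_natCast]; congr 1; push_cast [hLN']; ring
      rw [this]
      have := hst.a_ge
      gcongr
    have e2 : 1 + ((N - L : ℕ) : ℝ) * (β - 1) ≤ β ^ (N - L) := by
      have := one_add_mul_le_pow (a := β - 1) (by linarith) (N - L)
      simpa using this
    rw [Nat.cast_sub hLN'] at e2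
    have e3 : (N : ℝ) / 2 * (β - 1) ≤ a * β ^ (((2 * N : ℕ) : ℤ) - N) := by
      have : (N : ℝ) / 2 * (β - 1) ≤ ((N : ℝ) - L) * (β - 1) :=
        mul_le_mul_of_nonneg_right (by linarith) (by linarith)
      linarith
    rw [key]
    have e4 : (N : ℝ) / 2 * b ≤
        Real.pi * (a * β ^ (((2 * N : ℕ) : ℤ) - N)) * (1 - β⁻¹) := by
      have h3 : 0 ≤ (N : ℝ) / 2 * (β - 1) := by
        have : 0 ≤ β - 1 := by linarith
        positivity
      have h4 : (N : ℝ) / 2 * (β - 1) ≤ Real.pi * (a * β ^ (((2 * N : ℕ) : ℤ) - N)) := by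
        calc (N : ℝ) / 2 * (β - 1) = 1 * ((N : ℝ) / 2 * (β - 1)) := by ring
          _ ≤ _ := mul_le_mul (by linarith [Real.pi_gt_three]) e3 h3 hpi.le
      calc (N : ℝ) / 2 * b = (N : ℝ) / 2 * (β - 1) * (1 - β⁻¹) := by rw [hb]; ring
        _ ≤ _ := by gcongr
    refine le_trans ?_ (pow_le_pow_left₀ (by positivity) e4 2)
    have h5 : 8 ≤ h * b ^ 2 := by
      rw [div_le_iff₀ (by positivity)] at g3
      exact g3.trans (by gcongr)
    have h6 : h ≤ h ^ 7 := by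
      calc h = h ^ 1 := by ring
        _ ≤ h ^ 7 := pow_le_pow_right₀ hh1' (by norm_num)
    have h7' : 4 ≤ N * b ^ 2 := by
      have : h / 2 * b ^ 2 ≤ N * b ^ 2 := by gcongr; linarith
      linarith
    have hNpos : (0 : ℝ) ≤ N := Nat.cast_nonneg N
    calc (N : ℝ) = N * 4 / 4 := by ring
      _ ≤ N * (N * b ^ 2) / 4 := by gcongr
      _ = _ := by ring
  · rw [key]; exact (tan_bound hρ0 hρ (hm' _)).1
  · have h1 := (hE (2 * N) h2N).sum_inj (Finset.range K) (fun i : ℕ => ((2 * N : ℕ) : ℤ) - i)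
      (hinj K) (fun i _ => by omega)
    calc _ ≤ ∑ i ∈ Finset.range K, C ^ 2 * dd (a * β ^ (((2 * N : ℕ) : ℤ) - i)) ^ 2 := by
          refine Finset.sum_le_sum fun i _ => ?_
          rw [key, ← mul_pow, ← sq_abs]
          exact pow_le_pow_left₀ (abs_nonneg _) (tan_bound hρ0 hρ (hm' _)).2 2
      _ = C ^ 2 * ∑ i ∈ Finset.range K, dd (a * β ^ (((2 * N : ℕ) : ℤ) - i)) ^ 2 := by
          rw [Finset.mul_sum]
      _ ≤ _ := by gcongr
  · have h1 := hst.l1 hβ hz (2 * N)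
      ((Finset.range K).image (fun i : ℕ => ((2 * N : ℕ) : ℤ) - i)) (by
        intro j hj
        obtain ⟨i, _, rfl⟩ := Finset.mem_image.1 hj
        omega)
    rw [Finset.sum_image (hinj K)] at h1
    have h2 : 2 * ‖w‖ * ((2 * N : ℕ) : ℝ) ≤ 4 * h ^ 3 := by
      push_cast
      calc 2 * ‖w‖ * (2 * (N : ℝ)) ≤ 2 * (1 / h ^ 4) * (2 * h ^ 7) := by gcongr
        _ = _ := by field_simp; norm_num
    have h3 : 1 ≤ h ^ 3 := one_le_pow₀ hh1'
    calc _ ≤ ∑ i ∈ Finset.range K, C * dd (a * β ^ (((2 * N : ℕ) : ℤ) - i)) := by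
          refine Finset.sum_le_sum fun i _ => ?_
          rw [key]
          exact (tan_bound hρ0 hρ (hm' _)).2
      _ = C * ∑ i ∈ Finset.range K, dd (a * β ^ (((2 * N : ℕ) : ℤ) - i)) := by
          rw [Finset.mul_sum]
      _ ≤ C * ((2 * κ + 5) * h ^ 3) := by
          have h4 : κ * 1 ≤ κ * h ^ 3 := by gcongr
          gcongr
          linarith
      _ = _ := by rw [hC']; ring
  · set s := Real.sqrt h with hs
    have hs0 : 0 < s := Real.sqrt_pos.2 hh0
    have hs2 : s ^ 2 = h := Real.sq_sqrt hh0.le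
    have hAs : A ≤ s := Real.le_sqrt_of_sq_le (g4.trans hh)
    have he : Real.exp (C ^ 2 * D) ≤ s := by
      have : Real.log s = Real.log h / 2 := Real.log_sqrt hh0.le
      rw [← Real.exp_log hs0, this]
      exact Real.exp_le_exp.2 hT
    have h6 : 1 ≤ h ^ 6 := one_le_pow₀ hh1'
    have hAδ : 2 * (1 + C' ^ 2) = A * δ := by rw [hA]; field_simp
    calc Real.exp (C ^ 2 * D) * (1 + (C' * h ^ 3) ^ 2) ≤ s * ((1 + C' ^ 2) * h ^ 6) := by
          have h4 : 1 + (C' * h ^ 3) ^ 2 ≤ (1 + C' ^ 2) * h ^ 6 := by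
            have : (1 + C' ^ 2) * h ^ 6 = h ^ 6 + (C' * h ^ 3) ^ 2 := by ring
            linarith
          gcongr
      _ = s * (A * δ / 2 * h ^ 6) := by rw [← hAδ]; ring
      _ ≤ s * (s * δ / 2 * h ^ 6) := by gcongr
      _ = δ * (s ^ 2 * h ^ 6 / 2) := by ring
      _ = δ * (h ^ 7 / 2) := by rw [hs2]; ring
      _ ≤ _ := by gcongr

end Crest.Agent.R104
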